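import Vale.Agent.P073.R2.H580.Defs

/-!
# P073: fibrewise monotone maps and line preserving maps in smooth coordinates
-/

namespace Vale.Agent.P073.R2.H580

open MeasureTheory Set Filter Topology Vale.Agent.P073.St
open scoped ContDiff

/-- the homeomorphism `f` of `U` onto `W` is **fibrewise monotone in smooth coordinates**: there are
`C^∞` diffeomorphisms `a : U' → U` and `b : W → W'` (no bounds near the boundary are asked), with
bounded domains `U'` and `W'`, and a set `I` of coordinates such that `b ∘ f ∘ a` is fibrewise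
monotone on `U'` for `I`. -/
def FibCoord (U W : Set V) (f : V → V) : Prop :=
  ∃ (I : Finset (Fin 3)) (U' W' : Set V) (a b : V → V), IsBoundedDomain U' ∧
    IsBoundedDomain W' ∧ IsDiffeo U' U a ∧ IsDiffeo W W' b ∧
    FibMonotone I U' (fun x => b (f (a x)))

/-- the homeomorphism `f` of `U` onto `W` is **line preserving in smooth coordinates**: there are
diffeomorphisms `a : U' → U` and `b : W → W'` as above such that for `f' = b ∘ f ∘ a` the two
functions `f'_0` and `f'_1` are smooth, and `D f'_0(x) h = D f'_1(x) h = 0` implies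
`h_0 = h_1 = 0` (so `f'` maps vertical segments to vertical segments, by an arbitrary
homeomorphism). -/
def LineCoord (U W : Set V) (f : V → V) : Prop :=
  ∃ (U' W' : Set V) (a b : V → V), IsBoundedDomain U' ∧ IsBoundedDomain W' ∧ IsDiffeo U' U a ∧
    IsDiffeo W W' b ∧ (∀ j ≠ (2 : Fin 3), ContDiffOn ℝ ∞ (fun x => b (f (a x)) j) U') ∧
    ∀ x ∈ U', ∀ h : V, (∀ j ≠ (2 : Fin 3), fderiv ℝ (fun z => b (f (a z)) j) x h = 0) →
      ∀ j ≠ (2 : Fin 3), h j = 0

end Vale.Agent.P073.R2.H580
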