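import Vale.Agent.P073.R2.H580.PertW
import Vale.Agent.P073.R2.H580.Defs2
import Vale.Agent.P073.R2.H524.Lines

/-!
# P073: fibrewise monotone maps in smooth coordinates: fine approximation
-/

namespace Vale.Agent.P073.R2.H580

open MeasureTheory Set Filter Topology Metric Vale.Agent.P073.St Vale.Agent.P073.AB
open Vale.Agent.P073.SQ (ev)
open scoped ContDiff ENNReal

theorem diffeo_homeo {U W : Set V} {g : V → V} (h : St.IsDiffeo U W g) : St.IsHomeo U W g := by
  obtain ⟨k, hi, h1, h2⟩ := h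
  exact ⟨k, hi, continuousOn_pi.2 fun i => (h1 i).continuousOn,
    continuousOn_pi.2 fun i => (h2 i).continuousOn⟩

theorem homeo_comp {U W X : Set V} {f g : V → V} (hf : St.IsHomeo U W f)
    (hg : St.IsHomeo W X g) : St.IsHomeo U X (fun x => g (f x)) := by
  obtain ⟨k, ⟨a1, a2⟩, a3, a4⟩ := hf
  obtain ⟨l, ⟨b1, b2⟩, b3, b4⟩ := hg
  refine ⟨fun y => k (l y), ⟨fun x hx => ?_, fun y hy => ?_⟩, ?_, ?_⟩
  · refine ⟨(b1 _ (a1 x hx).1).1, ?_⟩
    show k (l (g (f x))) = x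
    rw [(b1 _ (a1 x hx).1).2, (a1 x hx).2]
  · refine ⟨(a2 _ (b2 y hy).1).1, ?_⟩
    show g (f (k (l y))) = y
    rw [(a2 _ (b2 y hy).1).2, (b2 y hy).2]
  · exact b3.comp a3 fun x hx => (a1 x hx).1
  · exact a4.comp b4 fun y hy => (b2 y hy).1

/-- an invertible matrix as a continuous linear equivalence -/
theorem exists_equiv' {A : Mat} (hA : NonSing A) : ∃ T : V ≃L[ℝ] V, ∀ v, T v = ap A v := by
  have he : ∀ v, ap A v = cl A v := fun v => by
    funext i
    rw [PK.cl_apply]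
    rfl
  have hi : Function.Injective (cl A : V →ₗ[ℝ] V) := by
    rw [injective_iff_map_eq_zero]
    intro v hv
    apply hA
    rw [he]
    exact hv
  refine ⟨(LinearEquiv.ofInjectiveEndo (cl A : V →ₗ[ℝ] V) hi).toContinuousLinearEquiv, fun v => ?_⟩
  rw [he]
  rfl

theorem domain_lin' (T : V ≃L[ℝ] V) {Λ : Set V} (hΛ : St.IsBoundedDomain Λ) :
    St.IsBoundedDomain (T '' Λ) := by
  have hb : Bornology.IsBounded (T '' Λ) :=
    (PK.isBounded_of_domain hΛ).image (T : V →L[ℝ] V)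
  obtain ⟨R, hR⟩ := (Metric.isBounded_iff_subset_closedBall (0 : V)).1 hb
  refine ⟨T.toHomeomorph.isOpenMap _ hΛ.1, hΛ.2.1.image _ T.continuous.continuousOn, 2 * R,
    fun x hx => ?_⟩
  have h1 := hR hx
  rw [mem_closedBall_zero_iff] at h1
  have h2 := euc_le_norm x
  linarith

/-- a linear change of the target of a diffeomorphism -/
theorem diffeo_lin' (T : V ≃L[ℝ] V) {U W : Set V} {g : V → V} (h : St.IsDiffeo U W g) :
    St.IsDiffeo U (T '' W) (fun x => T (g x)) := by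
  obtain ⟨k, ⟨a1, a2⟩, a3, a4⟩ := h
  refine ⟨fun y => k (T.symm y), ⟨fun x hx => ⟨⟨g x, (a1 x hx).1, rfl⟩, ?_⟩, ?_⟩, fun i => ?_,
    fun i => ?_⟩
  · show k (T.symm (T (g x))) = x
    rw [T.symm_apply_apply, (a1 x hx).2]
  · rintro _ ⟨y, hy, rfl⟩
    refine ⟨?_, ?_⟩
    · show k (T.symm (T y)) ∈ U
      rw [T.symm_apply_apply]
      exact (a2 y hy).1
    · show T (g (k (T.symm (T y)))) = T y
      rw [T.symm_apply_apply, (a2 y hy).2]
  · have h1 : ContDiffOn ℝ ∞ (fun x => T (g x)) U :=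
      T.contDiff.comp_contDiffOn (contDiffOn_pi.2 a3)
    exact contDiffOn_pi.1 h1 i
  · refine (a4 i).comp T.symm.contDiff.contDiffOn ?_
    rintro _ ⟨y, hy, rfl⟩
    show T.symm (T y) ∈ W
    rw [T.symm_apply_apply]
    exact hy

/-- line preserving homeomorphisms are fibrewise monotone in smooth coordinates -/
theorem fib_of_line {U W : Set V} {f : V → V} (hf : St.IsHomeo U W f) (h : LineCoord U W f) :
    FibCoord U W f := by
  obtain ⟨U', W', a, b, hU', hW', ha, hb, hs, hk⟩ := h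
  have hf' : St.IsHomeo U' W' (fun x => b (f (a x))) :=
    homeo_comp (g := fun y => b (f y)) (diffeo_homeo ha)
      (homeo_comp (f := f) (g := b) hf (diffeo_homeo hb))
  obtain ⟨A, hA, hfib⟩ := Vale.Agent.P073.R2.H524.fib_of_lines hU'.1 hU'.2.1 hf' hs hk
  obtain ⟨T, hT⟩ := exists_equiv' hA
  refine ⟨{2}, U', T '' W', a, fun y => T (b y), hU', domain_lin' T hW', ha,
    diffeo_lin' T hb, ?_⟩
  simp only [hT]
  exact hfib

/-- **fibrewise monotone homeomorphisms in smooth coordinates are finely approximable** -/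
theorem fa_of_coord (hC : SpecChain) (hG : SpecGlue) {p : ℝ} {Ω Λ : Set V} {f : V → V}
    {F : V → Mat} (hp : 1 ≤ p) (hΩ : St.IsBoundedDomain Ω) (hΛ : St.IsBoundedDomain Λ)
    (hf : St.IsHomeo Ω Λ f) (hF : St.IsSobolev p Ω f F) (h : FibCoord Ω Λ f) :
    _root_.Vale.Agent.P073.H694.FA p Ω Λ f F := by
  obtain ⟨I, U', W', a, b, hU', hW', ha, hb, hfib⟩ := h
  have hf' : St.IsHomeo U' W' (fun x => b (f (a x))) :=
    homeo_comp (g := fun y => b (f y)) (diffeo_homeo ha)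
      (homeo_comp (f := f) (g := b) hf (diffeo_homeo hb))
  have hF' := hC p Ω Λ U' W' f F a b hp hΩ hΛ.1 hU'.1 hW'.1 hf hF ha hb
  exact hG p Ω Λ U' W' f F a b hp hΩ hΛ hU'.1 hW'.1 hf hF ha hb
    (wfa_of_fib hp hU' hW' hf' hF' hfib)

end Vale.Agent.P073.R2.H580
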