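import Vale.Agent.P073.R2.H580.Defs2

/-!
# P073: layered maps in smooth coordinates
-/

namespace Vale.Agent.P073.R2.H580

open MeasureTheory Set Filter Topology Vale.Agent.P073.St
open scoped ContDiff

/-- **layered maps.** The coordinates are divided into layers, `r j` is the number of the layer of
`j`. The map `f` is layered on `U` if

* the components `f_j` in the layers below `b₀` are smooth, and a vector `h` with `D f_j(x) h = 0`
  for all these `j` satisfies `h_j = 0` for all these `j` (no condition if there are none);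
* each other component `f_i` depends, near each point, only on the coordinates in the layers up to
  its own;
* `f` is monotone along each layer `b ≥ b₀`, for some constant `c`: for each vector `h` in the layer
  there is a vector `n` in the layer, `|n| ≤ c |h|` and `n · h ≥ |h|²`, such that near each point
  `n · f` does not decrease in the direction `h`. -/
def Layered (r : Fin 3 → ℕ) (b₀ : ℕ) (U : Set V) (f : V → V) : Prop :=
  (∀ j, r j < b₀ → ContDiffOn ℝ ∞ (fun x => f x j) U) ∧
  (∀ x ∈ U, ∀ h : V, (∀ j, r j < b₀ → fderiv ℝ (fun z => f z j) x h = 0) →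
    ∀ j, r j < b₀ → h j = 0) ∧
  (∀ i, b₀ ≤ r i → ∀ a ∈ U, ∃ ρ : ℝ, 0 < ρ ∧ ∀ x y, euc (x - a) < ρ → euc (y - a) < ρ →
    (∀ j, r j ≤ r i → x j = y j) → f x i = f y i) ∧
  ∃ c : ℝ, ∀ b, b₀ ≤ b → ∀ h : V, (∀ j, r j ≠ b → h j = 0) →
    ∃ n : V, (∀ j, r j ≠ b → n j = 0) ∧ euc n ≤ c * euc h ∧ euc h ^ 2 ≤ ∑ i, n i * h i ∧
      ∀ a ∈ U, ∃ ρ : ℝ, 0 < ρ ∧ ∀ x, ∀ t : ℝ, euc (x - a) < ρ → 0 ≤ t → t < ρ →
        ∑ i, n i * f x i ≤ ∑ i, n i * f (x + t • h) i

/-- the homeomorphism `f` of `U` onto `W` is **layered in smooth coordinates**: there are `C^∞`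
diffeomorphisms `a : U' → U` and `b : W → W'` (no bounds near the boundary are asked), with bounded
domains `U'` and `W'`, such that `b ∘ f ∘ a` is layered on `U'`. -/
def LayerCoord (U W : Set V) (f : V → V) : Prop :=
  ∃ (r : Fin 3 → ℕ) (b₀ : ℕ) (U' W' : Set V) (a b : V → V), IsBoundedDomain U' ∧
    IsBoundedDomain W' ∧ IsDiffeo U' U a ∧ IsDiffeo W W' b ∧
    Layered r b₀ U' (fun x => b (f (a x)))

/-- the homeomorphism `f` of `U` onto `W` is **triangular in smooth coordinates**: for some `a`, `b`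
as above, near each point of `U'` the first component of `b ∘ f ∘ a` depends only on the first
coordinate, and the second one only on the first two coordinates. -/
def TriCoord (U W : Set V) (f : V → V) : Prop :=
  ∃ (U' W' : Set V) (a b : V → V), IsBoundedDomain U' ∧ IsBoundedDomain W' ∧ IsDiffeo U' U a ∧
    IsDiffeo W W' b ∧ ∀ z ∈ U', ∃ ρ : ℝ, 0 < ρ ∧ ∀ x y, euc (x - z) < ρ → euc (y - z) < ρ →
      (x 0 = y 0 → b (f (a x)) 0 = b (f (a y)) 0) ∧
      (x 0 = y 0 → x 1 = y 1 → b (f (a x)) 1 = b (f (a y)) 1)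

end Vale.Agent.P073.R2.H580
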