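import Vale.Agent.P073.R2.H580.SpecT
import Vale.Agent.P073.R2.H580.Coord

/-!
# P073: two smooth independent components: assembly
-/

namespace Vale.Agent.P073.R2.H580

open MeasureTheory Set Filter Topology Metric Vale.Agent.P073.St Vale.Agent.P073.AB
open scoped ContDiff ENNReal

/-- Row L3 for bounded targets. -/
def SpecL3b : Prop := ∀ (Ω Λ : Set V) (f : V → V), IsOpen Ω → IsOpen Λ → Bornology.IsBounded Λ →
  St.IsHomeo Ω Λ f → Ind Ω f →
  (∀ a ∈ Ω, ∃ N : Set V, IsOpen N ∧ a ∈ N ∧ N ⊆ Ω ∧ LocUp f N) →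
  ∀ δ : V → ℝ, ContinuousOn δ Ω → (∀ x ∈ Ω, 0 < δ x) →
    ∃ w : V → ℝ, ContDiffOn ℝ ∞ w Ω ∧ (∀ x ∈ Ω, |w x - f x 2| ≤ δ x) ∧
      ∀ x ∈ Ω, 0 < fderiv ℝ w x (cr f x)

theorem LocUp.mono {f : V → V} {N M : Set V} (h : LocUp f N) (hM : M ⊆ N) : LocUp f M := by
  intro ε hε
  obtain ⟨w, h1, h2, h3⟩ := h ε hε
  exact ⟨w, h1.mono hM, fun x hx => h2 x (hM hx), fun x hx => h3 x (hM hx)⟩

/-- a functional on `ℝ³` in coordinates -/
theorem lin_eb (L : V →L[ℝ] ℝ) (h : V) :
    L h = h 0 * L (eb 0) + h 1 * L (eb 1) + h 2 * L (eb 2) := by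
  have h1 : h = h 0 • eb 0 + h 1 • eb 1 + h 2 • eb 2 := by
    funext k
    fin_cases k <;> simp [eb]
  conv_lhs => rw [h1]
  simp only [map_add, map_smul, smul_eq_mul]

/-- the kernel of two independent functionals -/
theorem kernel_cr {A B : V →L[ℝ] ℝ} (hi : ∀ s t : ℝ, s • A + t • B = 0 → s = 0 ∧ t = 0) {h : V}
    (hA : A h = 0) (hB : B h = 0) : ∃ t : ℝ, h = t • (![A (eb 1) * B (eb 2) - A (eb 2) * B (eb 1),
      A (eb 2) * B (eb 0) - A (eb 0) * B (eb 2), A (eb 0) * B (eb 1) - A (eb 1) * B (eb 0)] : V) := by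
  rw [lin_eb] at hA hB
  set a0 := A (eb 0) with ha0
  set a1 := A (eb 1) with ha1
  set a2 := A (eb 2) with ha2
  set b0 := B (eb 0) with hb0
  set b1 := B (eb 1) with hb1
  set b2 := B (eb 2) with hb2
  have hlin : ∀ s t : ℝ, s * a0 + t * b0 = 0 → s * a1 + t * b1 = 0 → s * a2 + t * b2 = 0 →
      s = 0 ∧ t = 0 := by
    intro s t e0 e1 e2
    apply hi
    ext v
    show s * A v + t * B v = 0
    rw [lin_eb A v, lin_eb B v]
    linear_combination v 0 * e0 + v 1 * e1 + v 2 * e2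
  -- one of the minors is not zero
  by_cases m0 : a1 * b2 - a2 * b1 = 0
  · by_cases m1 : a2 * b0 - a0 * b2 = 0
    · by_cases m2 : a0 * b1 - a1 * b0 = 0
      · exfalso
        have e0 := (hlin b0 (-a0) (by ring) (by linear_combination -m2)
          (by linear_combination m1)).2
        have e1 := (hlin b1 (-a1) (by linear_combination m2) (by ring)
          (by linear_combination -m0)).2
        have e2 := (hlin b2 (-a2) (by linear_combination -m1) (by linear_combination m0)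
          (by ring)).2
        have f0 : a0 = 0 := by linarith
        have f1 : a1 = 0 := by linarith
        have f2 : a2 = 0 := by linarith
        have := (hlin 1 0 (by rw [f0]; ring) (by rw [f1]; ring) (by rw [f2]; ring)).1
        exact one_ne_zero this
      · refine ⟨h 2 / (a0 * b1 - a1 * b0), ?_⟩
        funext k
        fin_cases k
        · show h 0 = h 2 / (a0 * b1 - a1 * b0) * (a1 * b2 - a2 * b1)
          rw [div_mul_eq_mul_div, eq_div_iff m2]
          linear_combination b1 * hA - a1 * hB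
        · show h 1 = h 2 / (a0 * b1 - a1 * b0) * (a2 * b0 - a0 * b2)
          rw [div_mul_eq_mul_div, eq_div_iff m2]
          linear_combination (-b0) * hA + a0 * hB
        · show h 2 = h 2 / (a0 * b1 - a1 * b0) * (a0 * b1 - a1 * b0)
          rw [div_mul_cancel₀ _ m2]
    · refine ⟨h 1 / (a2 * b0 - a0 * b2), ?_⟩
      funext k
      fin_cases k
      · show h 0 = h 1 / (a2 * b0 - a0 * b2) * (a1 * b2 - a2 * b1)
        rw [div_mul_eq_mul_div, eq_div_iff m1]
        linear_combination (-b2) * hA + a2 * hB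
      · show h 1 = h 1 / (a2 * b0 - a0 * b2) * (a2 * b0 - a0 * b2)
        rw [div_mul_cancel₀ _ m1]
      · show h 2 = h 1 / (a2 * b0 - a0 * b2) * (a0 * b1 - a1 * b0)
        rw [div_mul_eq_mul_div, eq_div_iff m1]
        linear_combination b0 * hA - a0 * hB
  · refine ⟨h 0 / (a1 * b2 - a2 * b1), ?_⟩
    funext k
    fin_cases k
    · show h 0 = h 0 / (a1 * b2 - a2 * b1) * (a1 * b2 - a2 * b1)
      rw [div_mul_cancel₀ _ m0]
    · show h 1 = h 0 / (a1 * b2 - a2 * b1) * (a2 * b0 - a0 * b2)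
      rw [div_mul_eq_mul_div, eq_div_iff m0]
      linear_combination b2 * hA - a2 * hB
    · show h 2 = h 0 / (a1 * b2 - a2 * b1) * (a0 * b1 - a1 * b0)
      rw [div_mul_eq_mul_div, eq_div_iff m0]
      linear_combination (-b1) * hA + a1 * hB

/-- the case of one sign -/
theorem line_of_up (h3 : SpecL3b) {U W W' : Set V} {f b : V → V} (hU : St.IsBoundedDomain U)
    (hf : St.IsHomeo U W f) (hW' : St.IsBoundedDomain W') (hb : St.IsDiffeo W W' b)
    (hi : Ind U (fun x => b (f x)))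
    (hloc : ∀ a ∈ U, ∃ N : Set V, IsOpen N ∧ a ∈ N ∧ N ⊆ U ∧ LocUp (fun x => b (f x)) N) :
    LineCoord U W f := by
  set g : V → V := fun x => b (f x) with hg
  have hgh : St.IsHomeo U W' g := homeo_comp hf (diffeo_homeo hb)
  have hWc : W'ᶜ.Nonempty := by
    rw [nonempty_compl]
    rintro rfl
    exact NormedSpace.unbounded_univ ℝ V (PK.isBounded_of_domain hW')
  obtain ⟨k, ⟨hk1, hk2⟩, hgc, hkc⟩ := id hgh
  have hbij : BijOn g U W' :=
    ⟨fun x hx => (hk1 x hx).1, fun x hx y hy h => by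
      rw [← (hk1 x hx).2, h, (hk1 y hy).2], fun y hy => ⟨k y, (hk2 y hy).1, (hk2 y hy).2⟩⟩
  obtain ⟨δ₀, d1, d2, d3⟩ := Vale.Agent.P073.exists_delta_diffeo hU.1 hW'.1
    hW'.2.1.isPreconnected hWc hgc hkc hbij ⟨fun x hx => (hk1 x hx).2, fun y hy => (hk2 y hy).2⟩
  obtain ⟨w, w1, w2, w3⟩ := h3 U W' g hU.1 hW'.1 (PK.isBounded_of_domain hW') hgh hi hloc δ₀ d1 d2
  obtain ⟨i0, i1, hind⟩ := id hi
  set P : V → V := fun x => ![g x 0, g x 1, w x] with hP
  have hP0 : ∀ x, P x 0 = g x 0 := fun x => rfl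
  have hP1 : ∀ x, P x 1 = g x 1 := fun x => rfl
  have hP2 : ∀ x, P x 2 = w x := fun x => rfl
  have hPs : ContDiffOn ℝ ∞ P U := by
    refine contDiffOn_pi.2 fun i => ?_
    fin_cases i
    · exact i0
    · exact i1
    · exact w1
  have hPd : ∀ x ∈ U, HasFDerivAt P (fderiv ℝ P x) x := fun x hx =>
    ((hPs.contDiffAt (hU.1.mem_nhds hx)).differentiableAt (by simp)).hasFDerivAt
  have hcomp : ∀ x ∈ U, ∀ v, fderiv ℝ P x v 0 = fderiv ℝ (fun z => g z 0) x v ∧
      fderiv ℝ P x v 1 = fderiv ℝ (fun z => g z 1) x v ∧ fderiv ℝ P x v 2 = fderiv ℝ w x v := by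
    intro x hx v
    have h0 := (hasFDerivAt_pi'.1 (hPd x hx)) 0
    have h1 := (hasFDerivAt_pi'.1 (hPd x hx)) 1
    have h2 := (hasFDerivAt_pi'.1 (hPd x hx)) 2
    have e0 : fderiv ℝ (fun z => g z 0) x = (ContinuousLinearMap.proj 0).comp (fderiv ℝ P x) :=
      h0.fderiv
    have e1 : fderiv ℝ (fun z => g z 1) x = (ContinuousLinearMap.proj 1).comp (fderiv ℝ P x) :=
      h1.fderiv
    have e2 : fderiv ℝ w x = (ContinuousLinearMap.proj 2).comp (fderiv ℝ P x) := h2.fderiv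
    rw [e0, e1, e2]
    exact ⟨rfl, rfl, rfl⟩
  have hPi : ∀ x ∈ U, ∀ v, fderiv ℝ P x v = 0 → v = 0 := by
    intro x hx v hv
    obtain ⟨c0, c1, c2⟩ := hcomp x hx v
    rw [hv] at c0 c1 c2
    obtain ⟨t, ht⟩ := kernel_cr (hind x hx) c0.symm c1.symm
    have hcr : v = t • cr g x := ht
    have h5 := w3 x hx
    have h6 : fderiv ℝ w x v = t * fderiv ℝ w x (cr g x) := by
      rw [hcr, map_smul, smul_eq_mul]
    rw [← c2] at h6
    have h7 : t = 0 := by
      rcases mul_eq_zero.1 h6.symm with h | h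
      · exact h
      · exact absurd h h5.ne'
    rw [hcr, h7, zero_smul]
  have hPg : ∀ x ∈ U, ‖P x - g x‖ ≤ δ₀ x := by
    intro x hx
    refine (pi_norm_le_iff_of_nonneg (d2 x hx).le).2 fun i => ?_
    fin_cases i
    · show ‖g x 0 - g x 0‖ ≤ δ₀ x
      rw [sub_self, norm_zero]
      exact (d2 x hx).le
    · show ‖g x 1 - g x 1‖ ≤ δ₀ x
      rw [sub_self, norm_zero]
      exact (d2 x hx).le
    · exact w2 x hx
  obtain ⟨hbP, k', hk', hinv⟩ := d3 P hPs hPi hPg
  have hPm : ∀ x ∈ U, P x ∈ W' := fun x hx => hbP.mapsTo hx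
  have hk'm : ∀ y ∈ W', k' y ∈ U ∧ P (k' y) = y := by
    intro y hy
    obtain ⟨x, hx, rfl⟩ := hbP.surjOn hy
    have h4 : k' (P x) = x := hinv.1 hx
    rw [h4]
    exact ⟨hx, rfl⟩
  have hkd : St.IsDiffeo W' U k' := by
    refine ⟨P, ⟨fun y hy => hk'm y hy, fun x hx => ⟨hPm x hx, hinv.1 hx⟩⟩,
      contDiffOn_pi.1 hk', contDiffOn_pi.1 hPs⟩
  have hcj : ∀ y ∈ W', ∀ j ≠ (2 : Fin 3), b (f (k' y)) j = y j := by
    intro y hy j hj
    have h1 := (hk'm y hy).2
    have h2 : g (k' y) j = P (k' y) j := by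
      fin_cases j
      · rfl
      · rfl
      · exact absurd rfl hj
    show g (k' y) j = y j
    rw [h2, h1]
  refine ⟨W', W', k', b, hW', hW', hkd, hb, fun j hj => ?_, fun x hx v hv j hj => ?_⟩
  · exact ((contDiff_pi.1 contDiff_id j).contDiffOn).congr fun y hy => hcj y hy j hj
  · have h5 := hv j hj
    have h6 : (fun z => b (f (k' z)) j) =ᶠ[𝓝 x] fun z : V => z j := by
      filter_upwards [hW'.1.mem_nhds hx] with z hz
      exact hcj z hz j hj
    rw [h6.fderiv_eq] at h5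
    have h7 : HasFDerivAt (fun z : V => z j)
        (ContinuousLinearMap.proj (R := ℝ) (φ := fun _ : Fin 3 => ℝ) j) x :=
      (ContinuousLinearMap.proj (R := ℝ) (φ := fun _ : Fin 3 => ℝ) j).hasFDerivAt
    rw [h7.fderiv] at h5
    exact h5

/-- the reflection -/
theorem exists_flip : ∃ T : V ≃L[ℝ] V, ∀ v : V, T v = ![v 0, v 1, - v 2] := by
  have hap : ∀ v : V, ap (fun i j => if i = j then (if i = 2 then -1 else 1) else 0) v =
      ![v 0, v 1, - v 2] := by
    intro v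
    funext k
    fin_cases k <;> simp [ap]
  obtain ⟨T, hT⟩ := exists_equiv' (A := fun i j => if i = j then (if i = 2 then -1 else 1) else 0)
    (by
      intro v hv
      rw [hap] at hv
      funext k
      have h0 := congrFun hv 0
      have h1 := congrFun hv 1
      have h2 := congrFun hv 2
      fin_cases k
      · exact h0
      · exact h1
      · have : - v 2 = 0 := h2
        show v 2 = 0
        linarith)
  exact ⟨T, fun v => by rw [hT, hap]⟩

/-- **two smooth independent components: line preserving in smooth coordinates** -/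
theorem line_of_two (h1 : SpecL1) (h2 : SpecL2) (h3 : SpecL3b) {U W : Set V} {f : V → V}
    (hU : St.IsBoundedDomain U) (hf : St.IsHomeo U W f) (h : TwoSmooth U W f) :
    LineCoord U W f := by
  obtain ⟨W', b, hW', hb, i0, i1, hind⟩ := h
  set g : V → V := fun x => b (f x) with hg
  have hgh : St.IsHomeo U W' g := homeo_comp hf (diffeo_homeo hb)
  have hi : Ind U g := ⟨i0, i1, hind⟩
  set A : Set V := {a | ∃ N : Set V, IsOpen N ∧ a ∈ N ∧ N ⊆ U ∧ LocUp g N} with hA
  set B : Set V := {a | ∃ N : Set V, IsOpen N ∧ a ∈ N ∧ N ⊆ U ∧ LocUp (flp g) N} with hB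
  have hAo : IsOpen A := by
    rw [isOpen_iff_mem_nhds]
    rintro a ⟨N, n1, n2, n3, n4⟩
    filter_upwards [n1.mem_nhds n2] with x hx
    exact ⟨N, n1, hx, n3, n4⟩
  have hBo : IsOpen B := by
    rw [isOpen_iff_mem_nhds]
    rintro a ⟨N, n1, n2, n3, n4⟩
    filter_upwards [n1.mem_nhds n2] with x hx
    exact ⟨N, n1, hx, n3, n4⟩
  have hcov : U ⊆ A ∪ B := by
    intro a ha
    obtain ⟨N, n1, n2, n3, n4 | n4⟩ := h1 U W' g hU.1 hgh hi a ha
    · exact Or.inl ⟨N, n1, n2, n3, n4⟩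
    · exact Or.inr ⟨N, n1, n2, n3, n4⟩
  have hdis : U ∩ (A ∩ B) = ∅ := by
    rw [eq_empty_iff_forall_notMem]
    rintro a ⟨-, ⟨N, n1, n2, n3, n4⟩, M, m1, m2, m3, m4⟩
    exact h2 U W' g hU.1 hgh hi (N ∩ M) (n1.inter m1) ⟨a, n2, m2⟩
      (inter_subset_left.trans n3) (n4.mono inter_subset_left) (m4.mono inter_subset_right)
  by_cases hUA : U ⊆ A
  · exact line_of_up h3 hU hf hW' hb hi fun a ha => hUA ha
  · have hUB : U ⊆ B := by
      have hpre := hU.2.1.isPreconnected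
      rcases (isPreconnected_iff_subset_of_disjoint.1 hpre) A B hAo hBo hcov hdis with h | h
      · exact absurd h hUA
      · exact h
    obtain ⟨T, hT⟩ := exists_flip
    have hTb : (fun x => T (b (f x))) = flp g := by
      funext x
      rw [hT]
      rfl
    refine line_of_up h3 (W' := T '' W') (b := fun y => T (b y)) hU hf (domain_lin' T hW')
      (diffeo_lin' T hb) ?_ ?_
    · show Ind U (fun x => T (b (f x)))
      rw [hTb]
      exact hi
    · show ∀ a ∈ U, ∃ N : Set V, IsOpen N ∧ a ∈ N ∧ N ⊆ U ∧ LocUp (fun x => T (b (f x))) N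
      rw [hTb]
      exact fun a ha => hUB ha

end Vale.Agent.P073.R2.H580
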