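import Vale.Agent.P073.R2.H580.Defs
import Vale.Agent.P073.MM.Part
import Vale.Agent.P073.H694.GlueC

/-!
# P073: fibrewise monotone maps in smooth coordinates: the rows
-/

namespace Vale.Agent.P073.R2.H580

open MeasureTheory Set Filter Topology Metric Vale.Agent.P073.St Vale.Agent.P073.AB
open Vale.Agent.P073.SQ (ev)
open scoped ContDiff ENNReal

/-- `f` is locally in `W^{1,p}` on `U`, with weak derivative `F` -/
def SobLoc (p : ℝ) (U : Set V) (f : V → V) (F : V → Mat) : Prop :=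
  ∀ K : Set V, IsOpen K → IsCompact (closure K) → closure K ⊆ U → St.IsSobolev p K f F

/-- weighted fine approximation -/
def WFA (p : ℝ) (U W : Set V) (f : V → V) (F : V → Mat) : Prop :=
  ∀ σ w : V → ℝ, ContinuousOn σ U → (∀ x ∈ U, 0 < σ x) → ContinuousOn w U → (∀ x ∈ U, 0 ≤ w x) →
    ∃ g : V → V, St.IsDiffeo U W g ∧ (∀ x ∈ U, ‖g x - f x‖ ≤ σ x) ∧
      ∫⁻ x in U, ENNReal.ofReal (w x) * ENNReal.ofReal (‖fderiv ℝ g x - cl (F x)‖ ^ p) ≤ 1

/-- the derivative matrix of `b ∘ f ∘ a` -/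
noncomputable def chF (f : V → V) (F : V → Mat) (a b : V → V) : V → Mat :=
  fun x i j => fderiv ℝ b (f (a x)) (cl (F (a x)) (fderiv ℝ a x (ev j))) i

/-- Row C: the chain rule in smooth coordinates. -/
def SpecChain : Prop := ∀ (p : ℝ) (Ω Λ Ω' Λ' : Set V) (f : V → V) (F : V → Mat) (a b : V → V),
  1 ≤ p → St.IsBoundedDomain Ω → IsOpen Λ → IsOpen Ω' → IsOpen Λ' → St.IsHomeo Ω Λ f →
  St.IsSobolev p Ω f F → St.IsDiffeo Ω' Ω a → St.IsDiffeo Λ Λ' b →
  SobLoc p Ω' (fun x => b (f (a x))) (chF f F a b)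

/-- Row G: weighted fine approximation in smooth coordinates gives fine approximation. -/
def SpecGlue : Prop := ∀ (p : ℝ) (Ω Λ Ω' Λ' : Set V) (f : V → V) (F : V → Mat) (a b : V → V),
  1 ≤ p → St.IsBoundedDomain Ω → St.IsBoundedDomain Λ → IsOpen Ω' → IsOpen Λ' →
  St.IsHomeo Ω Λ f → St.IsSobolev p Ω f F → St.IsDiffeo Ω' Ω a → St.IsDiffeo Λ Λ' b →
  WFA p Ω' Λ' (fun x => b (f (a x))) (chF f F a b) → _root_.Vale.Agent.P073.H694.FA p Ω Λ f F

end Vale.Agent.P073.R2.H580
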