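import Vale.Agent.P073.R2.H580.Weak
import Vale.Agent.P073.R2.H580.SpecC

/-!
# P073: smoothing with weights, for maps which are only locally in the class
-/

namespace Vale.Agent.P073.R2.H580

open MeasureTheory Set Filter Topology Metric Vale.Agent.P073.St Vale.Agent.P073.AB
open Vale.Agent.P073.MM
open scoped ContDiff ENNReal

variable {D : Submodule ℝ V}

/-- the levels -/
def Lv (U : Set V) (n : ℕ) : Set V := {x | lv n < infDist x Uᶜ}

theorem lv_open (U : Set V) (n : ℕ) : IsOpen (Lv U n) :=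
  isOpen_lt continuous_const (continuous_infDist_pt _)

theorem lv_sub {U : Set V} (hU : IsOpen U) (hne : Uᶜ.Nonempty) (n : ℕ) : Lv U n ⊆ U :=
  fun _ hx => sub_of_pos hne hU ((lv_pos n).trans hx)

theorem clv_sub {U : Set V} (hU : IsOpen U) (hne : Uᶜ.Nonempty) (n : ℕ) :
    {x : V | lv n ≤ infDist x Uᶜ} ⊆ U :=
  fun _ hx => sub_of_pos hne hU ((lv_pos n).trans_le hx)

theorem clv_compact {U : Set V} (hU : IsOpen U) (hUb : Bornology.IsBounded U)
    (hne : Uᶜ.Nonempty) (n : ℕ) : IsCompact {x : V | lv n ≤ infDist x Uᶜ} :=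
  (hUb.subset (clv_sub hU hne n)).isCompact_closure.of_isClosed_subset
    (isClosed_le continuous_const (continuous_infDist_pt _)) subset_closure

theorem clo_lv {U : Set V} (n : ℕ) : closure (Lv U n) ⊆ {x : V | lv n ≤ infDist x Uᶜ} :=
  closure_minimal (fun _ hx => le_of_lt (show lv n < _ from hx))
    (isClosed_le continuous_const (continuous_infDist_pt _))

theorem sobLoc_lv {p : ℝ} {U : Set V} {f : V → V} {F : V → Mat} (hU : IsOpen U)
    (hUb : Bornology.IsBounded U) (hne : Uᶜ.Nonempty) (hF : SobLoc p U f F) (n : ℕ) :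
    St.IsSobolev p (Lv U n) f F :=
  hF _ (lv_open U n) ((clv_compact hU hUb hne n).of_isClosed_subset isClosed_closure (clo_lv n))
    ((clo_lv n).trans (clv_sub hU hne n))

/-- an upper bound of a weight on the `n`-th piece -/
theorem exists_W {U : Set V} (hU : IsOpen U) (hUb : Bornology.IsBounded U) (hne : Uᶜ.Nonempty)
    {w : V → ℝ} (hw : ContinuousOn w U) (n : ℕ) :
    ∃ M : ℝ, 1 ≤ M ∧ ∀ x, Qn U n x → w x ≤ M := by
  obtain ⟨C, hC⟩ := (clv_compact hU hUb hne (n + 2)).exists_bound_of_continuousOn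
    (hw.mono (clv_sub hU hne (n + 2)))
  refine ⟨max C 1, le_max_right _ _, fun x hx => ?_⟩
  have h1 := hC x hx.1.le
  exact (le_abs_self _).trans (h1.trans (le_max_left _ _))

/-- the sign is local -/
theorem psd_loc {p : ℝ} {U : Set V} {f : V → V} {F : V → Mat} (hp : 1 ≤ p) (hU : IsOpen U)
    (hUb : Bornology.IsBounded U) (hne : Uᶜ.Nonempty) (hf : ContinuousOn f U)
    (hF : SobLoc p U f F) (hm : MonIn D U f) : PSDon D U F := by
  have h1 : ∀ n, PSDon D (Lv U n) F := fun n =>
    psd hp (lv_open U n) (hf.mono (lv_sub hU hne n)) (sobLoc_lv hU hUb hne hF n)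
      fun a ha => hm a (lv_sub hU hne n ha)
  have h2 : ∀ᵐ x ∂(volume : Measure V), ∀ n, x ∈ Lv U n → ∀ h ∈ D,
      0 ≤ ∑ i, h i * cl (F x) h i := by
    rw [ae_all_iff]
    exact h1
  filter_upwards [h2] with x hx hxU
  have hpos : 0 < infDist x Uᶜ :=
    (hU.isClosed_compl.notMem_iff_infDist_pos hne).1 (by simpa using hxU)
  obtain ⟨N, hN⟩ := exists_lv hpos
  exact hx N hN

/-- **the smoothing with weights** -/
theorem smoothW (hA1 : SpecMollLp) {p : ℝ} {U : Set V} {f : V → V} {F : V → Mat} {e₀ w : V → ℝ}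
    {ε : ℝ} (hp : 1 ≤ p) (hU : IsOpen U) (hUb : Bornology.IsBounded U) (hf : ContinuousOn f U)
    (hF : SobLoc p U f F) (hpsd : PSDon D U F) (he₀ : ContinuousOn e₀ U)
    (he₀0 : ∀ x ∈ U, 0 < e₀ x) (hw : ContinuousOn w U) (hw0 : ∀ x ∈ U, 0 ≤ w x) (hε : 0 < ε) :
    ∃ g : V → V, ContDiffOn ℝ ∞ g U ∧ (∀ x ∈ U, ‖g x - f x‖ ≤ e₀ x) ∧
      ∫⁻ x in U, ENNReal.ofReal (w x) * ENNReal.ofReal (‖fderiv ℝ g x - cl (F x)‖ ^ p) ≤
        ENNReal.ofReal ε ∧
      ∀ x ∈ U, ∀ h ∈ D, -(e₀ x) * ‖h‖ ^ 2 ≤ ∑ i, h i * fderiv ℝ g x h i := by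
  have hp0 : 0 < p := by linarith
  have hne : Uᶜ.Nonempty := by
    rw [nonempty_compl]
    rintro rfl
    exact NormedSpace.unbounded_univ ℝ V hUb
  have hv : volume U ≠ ⊤ := hUb.measure_lt_top.ne
  obtain ⟨c, c1, c2, c3, c4, c5, c6, c7⟩ := exists_part hU hUb hne
  obtain ⟨κ, hκ, hκε⟩ := exists_kap hp0 hε hv
  -- the weight is included in `e`
  set e : V → ℝ := fun x => min (e₀ x) (κ / (1 + w x)) with hedef
  have hw1 : ∀ x ∈ U, 0 < 1 + w x := fun x hx => by linarith [hw0 x hx]
  have he : ContinuousOn e U := he₀.inf (continuousOn_const.div (continuousOn_const.add hw)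
    fun x hx => (hw1 x hx).ne')
  have he0 : ∀ x ∈ U, 0 < e x := fun x hx => lt_min (he₀0 x hx) (div_pos hκ (hw1 x hx))
  have hee : ∀ x, e x ≤ e₀ x := fun x => min_le_left _ _
  have hew : ∀ x, e x ≤ κ / (1 + w x) := fun x => min_le_right _ _
  have hwp : ∀ x ∈ U, w x * (κ / (1 + w x)) ^ p ≤ κ ^ p := by
    intro x hx
    have h1 := hw0 x hx
    have h2 := hw1 x hx
    have h3 : (κ / (1 + w x)) ^ p = κ ^ p / (1 + w x) ^ p := Real.div_rpow hκ.le h2.le p
    have h4 : 1 + w x ≤ (1 + w x) ^ p := by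
      conv_lhs => rw [← Real.rpow_one (1 + w x)]
      exact Real.rpow_le_rpow_of_exponent_le (by linarith) hp
    have h5 : 0 < (1 + w x) ^ p := by positivity
    have h6 : 0 < κ ^ p := by positivity
    rw [h3, mul_div_assoc', div_le_iff₀ h5]
    nlinarith
  choose m m0 mκ me using exists_m hU hUb hne he he0 hκ
  choose M M1 hM using exists_W hU hUb hne hw
  have M0 : ∀ n, 0 < M n := fun n => lt_of_lt_of_le one_pos (M1 n)
  have hst := fun n => stage hA1 hp (lv_open U (n + 2)) (hUb.subset (lv_sub hU hne (n + 2)))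
    (hf.mono (lv_sub hU hne (n + 2))) (sobLoc_lv hU hUb hne hF (n + 2))
    (show PSDon D (Lv U (n + 2)) F by
      filter_upwards [hpsd] with x hx hxU using hx (lv_sub hU hne (n + 2) hxU))
    (c1 n) (c2 n) (c3 n)
    (show tsupport (c n) ⊆ Lv U (n + 2) from fun x hx => (lv_succ (n + 1)).trans_le (c5 n x hx))
    (Q := Qn U n)
    (r := lv (n + 1) - lv (n + 2)) (sub_pos.2 (lv_succ (n + 1)))
    (qn_of hne c5 c6 n) (η := (1 / 2 : ℝ) ^ (n + 1) * (m n / 3))
    (ε := κ * (1 / 2) ^ (n + 1) / (2 ^ (n + 1)) ^ p / M n) (by have := m0 n; positivity)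
    (by have := M0 n; positivity)
  choose T A B t1 t2 t3 t4 t5 t6 t7 t8 using hst
  have cd : Continuous fun x : V => infDist x Uᶜ := continuous_infDist_pt _
  have hWo : ∀ N, IsOpen {x : V | lv N < infDist x Uᶜ} := fun N => isOpen_lt continuous_const cd
  have hpos : ∀ x ∈ U, 0 < infDist x Uᶜ := fun x hx =>
    (hU.isClosed_compl.notMem_iff_infDist_pos hne).1 (by simpa using hx)
  have hex : ∀ x ∈ U, ∃ N, lv N < infDist x Uᶜ := fun x hx => exists_lv (hpos x hx)
  have hlvU : ∀ {N x}, lv N < infDist x Uᶜ → x ∈ U := fun {N x} h =>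
    sub_of_pos hne hU ((lv_pos N).trans h)
  -- the sum
  have hg : ∀ N, ∀ x, lv N < infDist x Uᶜ → ∑' n, T n x = ∑ n ∈ Finset.range (N + 2), T n x := by
    intro N x hx
    refine tsum_eq_sum fun n hn => ?_
    exact (t6 n x (not_qn hx (by simpa using hn))).1
  have hev : ∀ N x, lv N < infDist x Uᶜ →
      (fun y => ∑' n, T n y) =ᶠ[𝓝 x] fun y => ∑ n ∈ Finset.range (N + 2), T n y := by
    intro N x hx
    filter_upwards [(hWo N).mem_nhds hx] with y hy using hg N y hy
  have hsm : ∀ N, ContDiff ℝ ∞ fun y => ∑ n ∈ Finset.range (N + 2), T n y := fun N =>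
    ContDiff.sum fun n _ => t1 n
  have hfd : ∀ N x, lv N < infDist x Uᶜ → fderiv ℝ (fun y => ∑' n, T n y) x =
      ∑ n ∈ Finset.range (N + 2), (A n x + B n x) := by
    intro N x hx
    rw [(hev N x hx).fderiv_eq, fderiv_fun_sum fun n _ => ((t1 n).differentiable (by simp)) x]
    exact Finset.sum_congr rfl fun n _ => t2 n x
  have hc1 : ∀ N x, lv N < infDist x Uᶜ → ∑ n ∈ Finset.range (N + 2), c n x = 1 := by
    intro N x hx
    exact c7 N x hx.le (N + 1) (by omega)
  have hcd : ∀ N x, lv N < infDist x Uᶜ → ∑ n ∈ Finset.range (N + 2), fderiv ℝ (c n) x = 0 := by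
    intro N x hx
    rw [← fderiv_fun_sum fun n _ => ((c1 n).differentiable (by simp)) x]
    have h1 : (fun y => ∑ n ∈ Finset.range (N + 2), c n y) =ᶠ[𝓝 x] fun _ => (1 : ℝ) := by
      filter_upwards [(hWo N).mem_nhds hx] with y hy using hc1 N y hy
    rw [h1.fderiv_eq]
    simp
  -- the estimates
  have b3 : ∀ x ∈ U, ∀ n, ‖T n x - c n x • f x‖ ≤ (1 / 2 : ℝ) ^ (n + 1) * e x := by
    intro x hx n
    have h0 := he0 x hx
    by_cases hq : Qn U n x
    · refine (t3 n x).trans ?_
      have := me n x hq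
      have := m0 n
      gcongr
      linarith
    · obtain ⟨e1, -, -, e2, -⟩ := t6 n x hq
      rw [e1, e2, zero_smul, sub_zero, norm_zero]
      positivity
  have b4 : ∀ x ∈ U, ∀ n, ‖B n x - (fderiv ℝ (c n) x).smulRight (f x)‖ ≤
      (1 / 2 : ℝ) ^ (n + 1) * (min (e x) κ / 3) := by
    intro x hx n
    have h0 : 0 < min (e x) κ := lt_min (he0 x hx) hκ
    by_cases hq : Qn U n x
    · refine (t4 n x).trans ?_
      have h1 : m n ≤ min (e x) κ := le_min (me n x hq) (mκ n)
      have := m0 n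
      gcongr
    · obtain ⟨-, -, e1, -, e2⟩ := t6 n x hq
      have e3 : (0 : V →L[ℝ] ℝ).smulRight (f x) = 0 := by ext v : 1; simp
      rw [e1, e2, e3, sub_zero, norm_zero]
      positivity
  have hB : ∀ N x, lv N < infDist x Uᶜ →
      ‖∑ n ∈ Finset.range (N + 2), B n x‖ ≤ min (e x) κ / 3 := by
    intro N x hx
    have hxU := hlvU hx
    have h0 : 0 < min (e x) κ := lt_min (he0 x hxU) hκ
    have h1 : ∑ n ∈ Finset.range (N + 2), (fderiv ℝ (c n) x).smulRight (f x) = 0 := by
      ext v : 1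
      rw [ContinuousLinearMap.sum_apply]
      simp only [ContinuousLinearMap.smulRight_apply]
      rw [← Finset.sum_smul, ← ContinuousLinearMap.sum_apply, hcd N x hx]
      simp
    have h2 : ∑ n ∈ Finset.range (N + 2), B n x =
        ∑ n ∈ Finset.range (N + 2), (B n x - (fderiv ℝ (c n) x).smulRight (f x)) := by
      rw [Finset.sum_sub_distrib, h1, sub_zero]
    rw [h2]
    exact norm_sum_le_geo _ (by positivity) _ (b4 x hxU)
  refine ⟨fun x => ∑' n, T n x, ?_, ?_, ?_, ?_⟩
  · intro x hx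
    obtain ⟨N, hN⟩ := hex x hx
    exact (((hsm N).contDiffAt).congr_of_eventuallyEq (hev N x hN)).contDiffWithinAt
  · intro x hx
    obtain ⟨N, hN⟩ := hex x hx
    have h1 : f x = ∑ n ∈ Finset.range (N + 2), c n x • f x := by
      rw [← Finset.sum_smul, hc1 N x hN, one_smul]
    show ‖∑' n, T n x - f x‖ ≤ e₀ x
    refine le_trans ?_ (hee x)
    rw [hg N x hN]
    conv_lhs => rw [h1]
    rw [← Finset.sum_sub_distrib]
    exact norm_sum_le_geo _ (he0 x hx).le _ (b3 x hx)
  · -- the energy
    have hwm : AEMeasurable (fun x => ENNReal.ofReal (w x)) (volume.restrict U) :=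
      (hw.aemeasurable hU.measurableSet).ennreal_ofReal
    have hFm : AEStronglyMeasurable (fun x => cl (F x)) (volume.restrict U) := by
      have h1 : U = ⋃ n, Lv U n := by
        refine Subset.antisymm (fun x hx => ?_) (iUnion_subset fun n => lv_sub hU hne n)
        obtain ⟨N, hN⟩ := hex x hx
        exact mem_iUnion.2 ⟨N, hN⟩
      rw [h1, aestronglyMeasurable_iUnion_iff]
      exact fun n => PK.IsSob.aesm (sobLoc_lv hU hUb hne hF n)
    have hAm : ∀ n, AEMeasurable (fun x => ENNReal.ofReal ((2 ^ (n + 1)) ^ p) *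
        (ENNReal.ofReal (w x) * ENNReal.ofReal (‖A n x - c n x • cl (F x)‖ ^ p)))
          (volume.restrict U) := by
      intro n
      have h1 : AEStronglyMeasurable (fun x => A n x - c n x • cl (F x)) (volume.restrict U) :=
        (t8 n).aestronglyMeasurable.sub ((c1 n).continuous.aestronglyMeasurable.smul hFm)
      exact (hwm.mul (h1.norm.aemeasurable.pow_const p).ennreal_ofReal).const_mul _
    calc ∫⁻ x in U, ENNReal.ofReal (w x) *
          ENNReal.ofReal (‖fderiv ℝ (fun y => ∑' n, T n y) x - cl (F x)‖ ^ p)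
        ≤ ∫⁻ x in U, ENNReal.ofReal (2 ^ p) * (∑' n, ENNReal.ofReal ((2 ^ (n + 1)) ^ p) *
            (ENNReal.ofReal (w x) * ENNReal.ofReal (‖A n x - c n x • cl (F x)‖ ^ p)) +
              ENNReal.ofReal (κ ^ p)) := by
          refine setLIntegral_mono' hU.measurableSet fun x hx => ?_
          obtain ⟨N, hN⟩ := hex x hx
          have h0 : 0 < min (e x) κ := lt_min (he0 x hx) hκ
          have h9 : 0 ≤ κ / (1 + w x) := (div_pos hκ (hw1 x hx)).le
          have h8 := pt_energy hp0 h9 (fun n => A n x - c n x • cl (F x))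
            (∑ n ∈ Finset.range (N + 2), B n x) (fderiv ℝ (fun y => ∑' n, T n y) x - cl (F x))
            (N + 2) ?_ ?_
          · refine (mul_le_mul_right h8 (ENNReal.ofReal (w x))).trans ?_
            rw [← mul_assoc, mul_comm (ENNReal.ofReal (w x)), mul_assoc, mul_add,
              ← ENNReal.tsum_mul_left]
            refine mul_le_mul_right (add_le_add (le_of_eq (tsum_congr fun n => by ring)) ?_) _
            rw [← ENNReal.ofReal_mul (hw0 x hx)]
            exact ENNReal.ofReal_le_ofReal (hwp x hx)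
          · have h1 : cl (F x) = ∑ n ∈ Finset.range (N + 2), c n x • cl (F x) := by
              rw [← Finset.sum_smul, hc1 N x hN, one_smul]
            rw [hfd N x hN]
            conv_lhs => rw [h1]
            rw [Finset.sum_add_distrib, Finset.sum_sub_distrib]
            abel
          · have h1 := hB N x hN
            have h2 : min (e x) κ ≤ e x := min_le_left _ _
            have h3 := hew x
            linarith
      _ = ENNReal.ofReal (2 ^ p) * ((∫⁻ x in U, ∑' n, ENNReal.ofReal ((2 ^ (n + 1)) ^ p) *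
            (ENNReal.ofReal (w x) * ENNReal.ofReal (‖A n x - c n x • cl (F x)‖ ^ p))) +
            ENNReal.ofReal (κ ^ p) * volume U) := by
          rw [lintegral_const_mul' _ _ ENNReal.ofReal_ne_top,
            lintegral_add_right' _ aemeasurable_const, setLIntegral_const]
      _ ≤ ENNReal.ofReal (2 ^ p) * (ENNReal.ofReal κ + ENNReal.ofReal (κ ^ p) * volume U) := by
          gcongr
          rw [lintegral_tsum hAm]
          refine le_trans (ENNReal.tsum_le_tsum fun n => ?_) (tsum_geo κ hκ.le)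
          rw [lintegral_const_mul' _ _ ENNReal.ofReal_ne_top]
          have h1 : ∫⁻ x in U, ENNReal.ofReal (w x) *
              ENNReal.ofReal (‖A n x - c n x • cl (F x)‖ ^ p) ≤
              ENNReal.ofReal (M n) * ∫⁻ x in U, ENNReal.ofReal (‖A n x - c n x • cl (F x)‖ ^ p) := by
            rw [← lintegral_const_mul' _ _ ENNReal.ofReal_ne_top]
            refine setLIntegral_mono' hU.measurableSet fun x hx => ?_
            by_cases hq : Qn U n x
            · gcongr
              exact hM n x hq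
            · obtain ⟨-, e1, -, e2, -⟩ := t6 n x hq
              rw [e1, e2, zero_smul, sub_zero, norm_zero, Real.zero_rpow hp0.ne',
                ENNReal.ofReal_zero, mul_zero, mul_zero]
          calc ENNReal.ofReal ((2 ^ (n + 1)) ^ p) *
                ∫⁻ x in U, ENNReal.ofReal (w x) *
                  ENNReal.ofReal (‖A n x - c n x • cl (F x)‖ ^ p)
              ≤ ENNReal.ofReal ((2 ^ (n + 1)) ^ p) * (ENNReal.ofReal (M n) *
                ENNReal.ofReal (κ * (1 / 2) ^ (n + 1) / (2 ^ (n + 1)) ^ p / M n)) := by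
                gcongr
                refine h1.trans ?_
                gcongr
                exact (setLIntegral_le_lintegral _ _).trans (t5 n)
            _ = ENNReal.ofReal (κ * (1 / 2) ^ (n + 1)) := by
                have h2 := M0 n
                rw [← ENNReal.ofReal_mul h2.le, ← ENNReal.ofReal_mul (by positivity)]
                congr 1
                have : ((2 : ℝ) ^ (n + 1)) ^ p ≠ 0 := by positivity
                field_simp
      _ ≤ ENNReal.ofReal ε := hκε
  · intro x hx h hD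
    obtain ⟨N, hN⟩ := hex x hx
    have h0 : 0 < min (e x) κ := lt_min (he0 x hx) hκ
    rw [hfd N x hN, Finset.sum_add_distrib]
    have e1 : ∑ i, h i * ((∑ n ∈ Finset.range (N + 2), A n x +
        ∑ n ∈ Finset.range (N + 2), B n x) h) i =
        ∑ n ∈ Finset.range (N + 2), ∑ i, h i * A n x h i +
          ∑ i, h i * ((∑ n ∈ Finset.range (N + 2), B n x) h) i := by
      have e2 : ∀ i : Fin 3, h i * ((∑ n ∈ Finset.range (N + 2), A n x +
          ∑ n ∈ Finset.range (N + 2), B n x) h) i = (∑ n ∈ Finset.range (N + 2), h i * A n x h i) +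
          h i * ((∑ n ∈ Finset.range (N + 2), B n x) h) i := by
        intro i
        rw [← Finset.mul_sum, ← mul_add]
        congr 1
        show (∑ n ∈ Finset.range (N + 2), A n x) h i +
          (∑ n ∈ Finset.range (N + 2), B n x) h i = _
        congr 1
        rw [ContinuousLinearMap.sum_apply, Finset.sum_apply]
      rw [Finset.sum_congr rfl fun i _ => e2 i, Finset.sum_add_distrib]
      congr 1
      exact Finset.sum_comm
    rw [e1]
    have h1 : 0 ≤ ∑ n ∈ Finset.range (N + 2), ∑ i, h i * A n x h i :=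
      Finset.sum_nonneg fun n _ => t7 n x h hD
    have h2 := quad_bound (∑ n ∈ Finset.range (N + 2), B n x) h
    have h3 := hB N x hN
    have h4 : min (e x) κ ≤ e₀ x := (min_le_left _ _).trans (hee x)
    have h5 : 3 * ‖∑ n ∈ Finset.range (N + 2), B n x‖ * ‖h‖ ^ 2 ≤ e₀ x * ‖h‖ ^ 2 :=
      mul_le_mul_of_nonneg_right (by linarith) (by positivity)
    have h6 := (abs_le.1 h2).1
    linarith

end Vale.Agent.P073.R2.H580
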