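import Vale.Agent.P073.St

/-!
# P073: maps which are smooth across a family of parallel lines or planes and monotone along it
-/

namespace Vale.Agent.P073.R2.H580

open MeasureTheory Set Filter Topology Vale.Agent.P073.St
open scoped ContDiff

/-- `f` is **fibrewise monotone** on `U` for the set `I` of coordinates: the components `f_j`,
`j ∉ I`, are smooth, and a vector `h` with `D f_j(x) h = 0` for all `j ∉ I` satisfies `h_j = 0` for
all `j ∉ I` (for instance `f_j(x) = x_j` for all `j ∉ I`); and near each point of `U`,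
`(f x - f y) · (x - y) ≥ 0` for all `x`, `y` with `x_j = y_j` for all `j ∉ I`. -/
def FibMonotone (I : Finset (Fin 3)) (U : Set V) (f : V → V) : Prop :=
  (∀ j ∉ I, ContDiffOn ℝ ∞ (fun x => f x j) U) ∧
  (∀ x ∈ U, ∀ h : V, (∀ j ∉ I, fderiv ℝ (fun z => f z j) x h = 0) → ∀ j ∉ I, h j = 0) ∧
  ∀ a ∈ U, ∃ r : ℝ, 0 < r ∧ ∀ x y, euc (x - a) < r → euc (y - a) < r →
    (∀ j ∉ I, x j = y j) → 0 ≤ ∑ i, (x i - y i) * (f x i - f y i)

end Vale.Agent.P073.R2.H580
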