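import Vale.Agent.P073.R2.H580.Defs3
import Vale.Agent.P073.Net.Len

/-!
# P073: a fibrewise monotone map is layered
-/

namespace Vale.Agent.P073.R2.H580

open MeasureTheory Set Filter Topology Metric Vale.Agent.P073.St
open scoped ContDiff ENNReal

/-- a fibrewise monotone map is layered -/
theorem layered_of_fib {I : Finset (Fin 3)} {U : Set V} {f : V → V} (h : FibMonotone I U f) :
    Layered (fun i => if i ∈ I then 1 else 0) 1 U f := by
  obtain ⟨h1, h2, h3⟩ := h
  have hr : ∀ j, (if j ∈ I then 1 else 0) < 1 ↔ j ∉ I := fun j => by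
    by_cases hj : j ∈ I
    · simp [hj]
    · simp [hj]
  refine ⟨fun j hj => h1 j ((hr j).1 hj), fun x hx v hv j hj => ?_, fun i hi a ha => ?_,
    1, fun b hb v hv => ?_⟩
  · exact h2 x hx v (fun k hk => hv k ((hr k).2 hk)) j ((hr j).1 hj)
  · have hiI : i ∈ I := by
      by_contra h
      simp [h] at hi
    refine ⟨1, one_pos, fun x y _ _ hxy => ?_⟩
    have : x = y := funext fun j => hxy j (by
      by_cases hj : j ∈ I
      · simp [hj, hiI]
      · simp [hj])
    rw [this]
  · refine ⟨v, hv, by rw [one_mul], ?_, fun a ha => ?_⟩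
    · rw [euc, Real.sq_sqrt (Finset.sum_nonneg fun i _ => sq_nonneg (v i))]
      exact le_of_eq (Finset.sum_congr rfl fun i _ => sq (v i))
    · obtain ⟨r, hr0, hmon⟩ := h3 a ha
      have hv0 : ∀ j ∉ I, v j = 0 := fun j hj => hv j (by
        simp only [hj, if_false]
        omega)
      have hen : 0 ≤ euc v := Real.sqrt_nonneg _
      set ρ : ℝ := r / (2 * (1 + euc v)) with hρ
      have hρ0 : 0 < ρ := by positivity
      have hρ1 : ρ * (1 + euc v) = r / 2 := by
        rw [hρ]
        field_simp
      have hρr : ρ ≤ r / 2 := by nlinarith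
      refine ⟨ρ, hρ0, fun x t hx ht htρ => ?_⟩
      rcases ht.eq_or_lt with rfl | ht'
      · simp
      have hx' : euc (x + t • v - a) < r := by
        have e1 : x + t • v - a = (x - a) + t • v := by abel
        rw [e1]
        refine (_root_.P073.Net.euc_add_le _ _).trans_lt ?_
        rw [_root_.P073.Net.euc_smul, abs_of_pos ht']
        nlinarith
      have h5 := hmon (x + t • v) x hx' (by linarith) (fun j hj => by
        show x j + t * v j = x j
        rw [hv0 j hj, mul_zero, add_zero])
      have h6 : ∑ i, ((x + t • v) i - x i) * (f (x + t • v) i - f x i) =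
          t * (∑ i, v i * f (x + t • v) i - ∑ i, v i * f x i) := by
        rw [← Finset.sum_sub_distrib, Finset.mul_sum]
        refine Finset.sum_congr rfl fun i _ => ?_
        simp only [Pi.add_apply, Pi.smul_apply, smul_eq_mul]
        ring
      rw [h6] at h5
      have h7 := (mul_nonneg_iff_of_pos_left ht').1 h5
      linarith

/-- fibrewise monotone in smooth coordinates implies layered in smooth coordinates -/
theorem layer_of_fibCoord {U W : Set V} {f : V → V} (h : FibCoord U W f) : LayerCoord U W f := by
  obtain ⟨I, U', W', a, b, h1, h2, h3, h4, h5⟩ := h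
  exact ⟨_, 1, U', W', a, b, h1, h2, h3, h4, layered_of_fib h5⟩

end Vale.Agent.P073.R2.H580
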