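import Vale.Agent.P073.R2.H580.FinalA
import Vale.Agent.P073.H655.FinelyDefs
import Vale.Agent.P073.H880.Lim

/-!
# P073: from fine approximation to the statement of the problem
-/

namespace Vale.Agent.P073.R2.H580

open MeasureTheory Set Filter Topology Metric Vale.Agent.P073.St Vale.Agent.P073.AB
open Vale.Agent.P073.SQ (ev)
open Vale.Agent.P073.H655.V6 (FinelyApproximable)
open scoped ContDiff ENNReal

variable {p : ℝ} {Ω Λ : Set V}

theorem aemeasurable_col' {f : V → V} {F : V → Mat} (hF : St.IsSobolev p Ω f F) (j : Fin 3) :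
    AEMeasurable (fun x => ENNReal.ofReal (‖cl (F x) (ev j)‖ ^ p)) (volume.restrict Ω) := by
  have h2 : AEMeasurable (fun x => cl (F x) (ev j)) (volume.restrict Ω) :=
    ((ContinuousLinearMap.apply ℝ V (ev j)).continuous.comp_aestronglyMeasurable
      (PK.IsSob.aesm hF)).aemeasurable
  exact (h2.norm.pow_const p).ennreal_ofReal

theorem col_ne_top' (hp : 1 ≤ p) {f : V → V} {F : V → Mat} (hF : St.IsSobolev p Ω f F)
    (j : Fin 3) : ∫⁻ x in Ω, ENNReal.ofReal (‖cl (F x) (ev j)‖ ^ p) ≠ ⊤ := by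
  have hp0 : 0 ≤ p := by linarith
  have hev : ‖ev j‖ = 1 := by unfold ev; rw [Pi.norm_single]; simp
  have h1 := PK.IsSob.lintegral_ne_top hp hF
  refine ne_top_of_le_ne_top h1 (lintegral_mono fun x => ?_)
  rw [← ofReal_norm_rpow hp0]
  apply ENNReal.ofReal_le_ofReal
  apply Real.rpow_le_rpow (norm_nonneg _) _ hp0
  have h2 := (cl (F x)).le_opNorm (ev j)
  rwa [hev, mul_one] at h2

/-- fine approximation, in the terms of the problem -/
theorem finely_of_FA' (hp : 1 ≤ p) (hΩ : St.IsBoundedDomain Ω) (hΛ : St.IsBoundedDomain Λ)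
    {f : V → V} {F : V → Mat} (hf : St.IsHomeo Ω Λ f) (hF : St.IsSobolev p Ω f F)
    (h : _root_.Vale.Agent.P073.H694.FA p Ω Λ f F) : FinelyApproximable p Ω Λ f F := by
  intro σ hσ hσ0 ε hε
  have hp0 : 0 ≤ p := by linarith
  have hfc : ContinuousOn f Ω := hf.choose_spec.2.1
  have h6 : (0 : ℝ) < 6 ^ p := by positivity
  obtain ⟨g, hg, hgσ, hge⟩ := h (fun x => σ x / 2) (hσ.div_const 2)
    (fun x hx => half_pos (hσ0 x hx)) (ε / 6 ^ p) (div_pos hε h6)
  have hgs : ContDiffOn ℝ ∞ g Ω := diffeo_smooth hg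
  have het : err p Ω f F g ≠ ⊤ := ne_top_of_le_ne_top ENNReal.ofReal_ne_top hge
  obtain ⟨D, _, hD⟩ := norm_bound_of_domain hΛ
  refine ⟨g, hg, ?_, fun x hx => ?_, ?_⟩
  · refine isSobolev_of_smooth hp hΩ.1 (PK.volume_ne_top_of_domain hΩ) hgs
      (fun x hx => hD _ (diffeo_maps hg hx)) fun j => ?_
    have h1 : ∫⁻ x in Ω, ENNReal.ofReal (‖fderiv ℝ g x (ev j) - cl (F x) (ev j)‖ ^ p) ≠ ⊤ := by
      refine ne_top_of_le_ne_top het ?_
      unfold err
      refine le_trans ?_ le_add_self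
      exact Finset.single_le_sum (f := fun j => ∫⁻ x in Ω,
        ENNReal.ofReal (‖fderiv ℝ g x (ev j) - cl (F x) (ev j)‖ ^ p))
        (fun _ _ => zero_le) (Finset.mem_univ j)
    have h2 : ∫⁻ x in Ω, ENNReal.ofReal (‖cl (F x) (ev j)‖ ^ p) ≠ ⊤ := col_ne_top' hp hF j
    have h3 : ∫⁻ x in Ω, ENNReal.ofReal (‖fderiv ℝ g x (ev j)‖ ^ p) ≤
        2 ^ (p - 1) * ((∫⁻ x in Ω,
          ENNReal.ofReal (‖fderiv ℝ g x (ev j) - cl (F x) (ev j)‖ ^ p)) +
          ∫⁻ x in Ω, ENNReal.ofReal (‖cl (F x) (ev j)‖ ^ p)) := by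
      rw [← lintegral_add_right' _ (aemeasurable_col' hF j),
        ← lintegral_const_mul' _ _ H880.two_rpow_ne_top]
      refine lintegral_mono fun x => ?_
      have := H880.add_rpow_le hp (fderiv ℝ g x (ev j) - cl (F x) (ev j)) (cl (F x) (ev j))
      rwa [sub_add_cancel] at this
    exact ne_top_of_le_ne_top (ENNReal.mul_ne_top H880.two_rpow_ne_top
      (ENNReal.add_ne_top.2 ⟨h1, h2⟩)) h3
  · have h1 := euc_le_norm (g x - f x)
    have h2 := hgσ x hx
    linarith
  · refine (H880.int_le_err hp hΩ.1 hfc hF hgs het).2.trans ?_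
    have h1 := ENNReal.toReal_mono ENNReal.ofReal_ne_top hge
    rw [ENNReal.toReal_ofReal (div_pos hε h6).le] at h1
    calc 6 ^ p * (err p Ω f F g).toReal ≤ 6 ^ p * (ε / 6 ^ p) := by gcongr
      _ = ε := by field_simp

/-- finely approximable maps are approximable -/
theorem approx_of_finely {f : V → V} {F : V → Mat} (h : FinelyApproximable p Ω Λ f F) :
    St.DiffeoApproximable p Ω Λ f F := by
  have h1 := fun k : ℕ => h (fun _ => 1) continuousOn_const (fun _ _ => one_pos)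
    (1 / ((k : ℝ) + 1)) (by positivity)
  choose g g1 g2 g3 g4 using h1
  refine ⟨g, fun k => ⟨g1 k, g2 k⟩, ?_⟩
  refine squeeze_zero (fun k => ?_) g4 tendsto_one_div_add_atTop_nhds_zero_nat
  exact integral_nonneg fun x => add_nonneg (Real.rpow_nonneg (Real.sqrt_nonneg _) _)
    (Real.rpow_nonneg (Real.sqrt_nonneg _) _)

end Vale.Agent.P073.R2.H580
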