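import Vale.Agent.P073.R2.H580.Coord
import Vale.Agent.P073.R2.H669.Chain
import Vale.Agent.P073.R2.H655.GlueW

/-!
# P073: fibrewise monotone and line preserving homeomorphisms are finely approximable
-/

namespace Vale.Agent.P073.R2.H580

open MeasureTheory Set Filter Topology Metric Vale.Agent.P073.St Vale.Agent.P073.AB
open scoped ContDiff ENNReal

/-- **fibrewise monotone or line preserving homeomorphisms in smooth coordinates are finely
approximable** -/
theorem fa_coord {p : ℝ} (hp : 1 ≤ p) (Ω Λ : Set V) (f : V → V) (F : V → Mat)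
    (hΩ : St.IsBoundedDomain Ω) (hΛ : St.IsBoundedDomain Λ) (hf : St.IsHomeo Ω Λ f)
    (hF : St.IsSobolev p Ω f F) (h : FibCoord Ω Λ f ∨ LineCoord Ω Λ f) :
    _root_.Vale.Agent.P073.H694.FA p Ω Λ f F := by
  have h' : FibCoord Ω Λ f := h.elim id (fib_of_line hf)
  exact fa_of_coord Vale.Agent.P073.R2.H669.chain Vale.Agent.P073.R2.H655.specGlue hp hΩ hΛ hf hF h'

end Vale.Agent.P073.R2.H580
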