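import Vale.Agent.P073.R2.H580.FinalA
import Vale.Agent.P073.R2.H268.TriLayer
import Vale.Agent.P073.R2.H488.Point
import Vale.Agent.P073.R2.H655.Tame10

/-!
# P073: layered, triangular and line preserving homeomorphisms are finely approximable
-/

namespace Vale.Agent.P073.R2.H580

open MeasureTheory Set Filter Topology Metric Vale.Agent.P073.St Vale.Agent.P073.AB
open scoped ContDiff ENNReal

/-- **layered, triangular or line preserving homeomorphisms in smooth coordinates are finely
approximable** -/
theorem coordFA {p : ℝ} (hp : 1 ≤ p) : Vale.Agent.P073.R2.H655.V10.CoordFA p := by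
  intro Ω Λ f F hΩ hΛ hf hF h
  rcases h with h | h | h
  · exact Vale.Agent.P073.R2.H488.fa_of_layerCoord hp hΩ hΛ hf hF h
  · exact Vale.Agent.P073.R2.H488.fa_of_layerCoord hp hΩ hΛ hf hF
      (Vale.Agent.P073.R2.H268.layer_of_tri hf h)
  · exact fa_coord hp Ω Λ f F hΩ hΛ hf hF (Or.inr h)

end Vale.Agent.P073.R2.H580
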