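import Vale.Agent.P073.R2.H580.SmoothIW
import Vale.Agent.P073.R2.H524.ExT

/-!
# P073: fibrewise monotone maps: weighted fine approximation
-/

namespace Vale.Agent.P073.R2.H580

open MeasureTheory Set Filter Topology Metric Vale.Agent.P073.St Vale.Agent.P073.AB
open Vale.Agent.P073.SQ (ev)
open Vale.Agent.P073.MM
open Vale.Agent.P073.MM.H694 (rpow_add3_le lip_of_kappa)
open scoped ContDiff ENNReal

/-- the perturbation, with a function `δ₀` -/
theorem pertW_of {I : Finset (Fin 3)} {p : ℝ} {U W : Set V} {f : V → V} {F : V → Mat}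
    (hp : 1 ≤ p) (hU : IsOpen U) (hUb : Bornology.IsBounded U) (hW : IsOpen W)
    (hWc : Wᶜ.Nonempty) (hf : St.IsHomeo U W f) (hF : SobLoc p U f F)
    (hmon : FibMonotone I U f) {δ₀ : V → ℝ} (hδ₀ : ContinuousOn δ₀ U) (hδ₀0 : ∀ x ∈ U, 0 < δ₀ x)
    (hN : ∀ g : V → V, ContDiffOn ℝ ∞ g U → (∀ x ∈ U, ∀ v, fderiv ℝ g x v = 0 → v = 0) →
      (∀ x ∈ U, ‖g x - f x‖ ≤ δ₀ x) → St.IsDiffeo U W g) :
    WFA p U W f F := by
  intro σ w hσ hσ0 hw hw0
  have hp0 : 0 < p := by linarith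
  have hne : Uᶜ.Nonempty := by
    rw [nonempty_compl]
    rintro rfl
    exact NormedSpace.unbounded_univ ℝ V hUb
  obtain ⟨k, ⟨hk1, hk2⟩, hfc, hkc⟩ := id hf
  obtain ⟨R, hR1, hR⟩ : ∃ R : ℝ, 1 ≤ R ∧ ∀ x ∈ U, ‖x‖ ≤ R := by
    obtain ⟨R, hR⟩ := hUb.exists_norm_le
    exact ⟨max R 1, le_max_right _ _, fun x hx => (hR x hx).trans (le_max_left _ _)⟩
  have hR0 : 0 < R := by linarith
  have hwm : AEMeasurable (fun x => ENNReal.ofReal (w x)) (volume.restrict U) :=
    (hw.aemeasurable hU.measurableSet).ennreal_ofReal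
  have hFm := aesm_loc hU hUb hne hF
  have hFm' : AEMeasurable (fun x => ENNReal.ofReal (‖cl (F x)‖ ^ p)) (volume.restrict U) :=
    (hFm.norm.aemeasurable.pow_const p).ennreal_ofReal
  -- the function `τ`
  obtain ⟨τ, hτc, hτ01, hτ0, hτi⟩ := Vale.Agent.P073.R2.H524.exists_t hU hUb
    (u := fun x => ENNReal.ofReal (w x) * (ENNReal.ofReal (‖cl (F x)‖ ^ p) + 1))
    (hwm.mul (hFm'.add_const 1)) (by
      intro K hK hKU
      obtain ⟨n, hn⟩ := compact_sub_lv hU hne hK hKU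
      obtain ⟨C, hC⟩ := hK.exists_bound_of_continuousOn (hw.mono hKU)
      have h1 : ∫⁻ x in K, ENNReal.ofReal (w x) * (ENNReal.ofReal (‖cl (F x)‖ ^ p) + 1) ≤
          ENNReal.ofReal C * ((∫⁻ x in Lv U n, ENNReal.ofReal (‖cl (F x)‖ ^ p)) +
            volume (Lv U n)) := by
        calc ∫⁻ x in K, ENNReal.ofReal (w x) * (ENNReal.ofReal (‖cl (F x)‖ ^ p) + 1)
            ≤ ∫⁻ x in K, ENNReal.ofReal C * (ENNReal.ofReal (‖cl (F x)‖ ^ p) + 1) := by
              refine setLIntegral_mono' hK.measurableSet fun x hx => ?_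
              gcongr
              exact (le_abs_self _).trans (hC x hx)
          _ ≤ ∫⁻ x in Lv U n, ENNReal.ofReal C * (ENNReal.ofReal (‖cl (F x)‖ ^ p) + 1) :=
              lintegral_mono_set hn
          _ = _ := by
              rw [lintegral_const_mul' _ _ ENNReal.ofReal_ne_top,
                lintegral_add_right' _ aemeasurable_const, setLIntegral_const, one_mul]
      refine ne_top_of_le_ne_top ?_ h1
      refine ENNReal.mul_ne_top ENNReal.ofReal_ne_top (ENNReal.add_ne_top.2 ⟨?_, ?_⟩)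
      · have h2 := PK.IsSob.lintegral_ne_top hp (sobLoc_lv hU hUb hne hF n)
        simp_rw [ofReal_norm_rpow hp0.le]
        exact h2
      · exact (hUb.subset (lv_sub hU hne n)).measure_lt_top.ne)
    (ε := 1 / (2 * 3 ^ p)) (by positivity)
  -- the closeness
  set s : V → ℝ := fun x => min (min (σ x) 1)
    (min (δ₀ x) ((1 / 4) * min (infDist (f x) Wᶜ) 1)) with hs
  have hdc : ContinuousOn (fun x => infDist (f x) Wᶜ) U :=
    (continuous_infDist_pt _).comp_continuousOn hfc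
  have hdpos : ∀ x ∈ U, 0 < infDist (f x) Wᶜ := fun x hx =>
    (hW.isClosed_compl.notMem_iff_infDist_pos hWc).1 fun h => h (hk1 x hx).1
  have hsc : ContinuousOn s U :=
    (hσ.inf continuousOn_const).inf
      (hδ₀.inf (continuousOn_const.mul (hdc.inf continuousOn_const)))
  have hs0 : ∀ x ∈ U, 0 < s x := fun x hx =>
    lt_min (lt_min (hσ0 x hx) one_pos)
      (lt_min (hδ₀0 x hx) (mul_pos (by norm_num) (lt_min (hdpos x hx) one_pos)))
  have hkm : MapsTo k W U := fun y hy => (hk2 y hy).1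
  set δ : V → ℝ := fun y => min (τ (k y) / (48 * R)) (s (k y) / (16 * R)) with hδ
  have hδc : ContinuousOn δ W :=
    ((hτc.comp_continuousOn hkc).div_const _).inf ((hsc.comp hkc hkm).div_const _)
  have hδ0 : ∀ y ∈ W, 0 < δ y := fun y hy =>
    lt_min (div_pos (hτ0 _ (hkm hy)) (by positivity)) (div_pos (hs0 _ (hkm hy)) (by positivity))
  obtain ⟨κ₁, hκs, hκ, hκ0⟩ := Vale.Agent.P073.exists_kappa hW hδc hδ0
  have hδt : ∀ y, δ y ≤ 1 / 48 := fun y => by
    refine (min_le_left _ _).trans ?_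
    rw [div_le_div_iff₀ (by positivity) (by norm_num)]
    have := (hτ01 (k y)).2
    nlinarith
  have hlip := lip_of_kappa (W := W) hκs (fun y hy => ⟨(hκ y hy).1, by
    have h1 := (hκ y hy).2.2.le
    have h2 := hδt y
    linarith⟩) hκ0
  have hκ1 : ∀ y ∈ W, κ₁ y ≤ 1 / 48 := fun y hy => (hκ y hy).2.1.le.trans (hδt y)
  set κ : V → ℝ := fun y => κ₁ y * κ₁ y with hκdef
  have hκsm : ContDiff ℝ ∞ κ := hκs.mul hκs
  set e : V → ℝ := fun x => min (s x / 8) (κ₁ (f x) * κ₁ (f x) / 16) with he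
  have hκfc : ContinuousOn (fun x => κ₁ (f x)) U := hκs.continuous.comp_continuousOn hfc
  have hec : ContinuousOn e U := (hsc.div_const 8).inf ((hκfc.mul hκfc).div_const 16)
  have he0 : ∀ x ∈ U, 0 < e x := fun x hx =>
    lt_min (by have := hs0 x hx; linarith) (by have := (hκ _ (hk1 x hx).1).1; positivity)
  obtain ⟨g, hgs, hge, hgE, hgm⟩ := smoothIW hp hU hUb hfc hF hmon hec he0 hw hw0
    (ε := 1 / (2 * 3 ^ p * 2 ^ p)) (by positivity)
  set P : V → V := fun x => g x + κ (g x) • pr I x with hP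
  -- facts at the points
  have hgW : ∀ x ∈ U, g x ∈ W := by
    intro x hx
    by_contra hc
    have h1 := infDist_le_dist_of_mem (x := f x) (show g x ∈ Wᶜ from hc)
    rw [dist_eq_norm, norm_sub_rev] at h1
    have h2 := (hge x hx).trans (min_le_left _ _)
    have h3 : s x ≤ (1 / 4) * infDist (f x) Wᶜ :=
      (min_le_right _ _).trans ((min_le_right _ _).trans (by
        gcongr
        exact min_le_left _ _))
    have h4 := hdpos x hx
    linarith
  have hκg1 : ∀ x ∈ U, 3 / 4 * κ₁ (f x) ≤ κ₁ (g x) ∧ κ₁ (g x) ≤ 2 * κ₁ (f x) := by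
    intro x hx
    have h1 := hlip (g x) (f x)
    have h2 := (hge x hx)
    have h3 : e x ≤ κ₁ (f x) * κ₁ (f x) / 16 := min_le_right _ _
    have h4 := (hκ _ (hk1 x hx).1).1
    have h5 := hκ1 _ (hk1 x hx).1
    have h6 : κ₁ (f x) * κ₁ (f x) / 16 ≤ κ₁ (f x) / 4 := by nlinarith
    rw [abs_le] at h1
    constructor <;> linarith [h1.1, h1.2]
  have hκp : ∀ x ∈ U, 0 < κ (g x) := fun x hx => by
    have := (hκ _ (hgW x hx)).1
    rw [hκdef]
    positivity
  have hκg : ∀ x ∈ U, 3 * e x ≤ κ (g x) ∧ κ (g x) ≤ 2 * κ₁ (f x) := by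
    intro x hx
    obtain ⟨h1, h2⟩ := hκg1 x hx
    have h3 : e x ≤ κ₁ (f x) * κ₁ (f x) / 16 := min_le_right _ _
    have h4 := (hκ _ (hk1 x hx).1).1
    have h5 := (hκ _ (hgW x hx)).1
    have h6 := hκ1 _ (hgW x hx)
    refine ⟨?_, ?_⟩
    · show 3 * e x ≤ κ₁ (g x) * κ₁ (g x)
      have h7 : (3 / 4 * κ₁ (f x)) * (3 / 4 * κ₁ (f x)) ≤ κ₁ (g x) * κ₁ (g x) :=
        mul_le_mul h1 h1 (by positivity) h5.le
      nlinarith
    · show κ₁ (g x) * κ₁ (g x) ≤ 2 * κ₁ (f x)
      have h7 : κ₁ (g x) * κ₁ (g x) ≤ κ₁ (g x) * 1 :=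
        mul_le_mul_of_nonneg_left (by linarith) h5.le
      linarith
  have hκf : ∀ x ∈ U, κ₁ (f x) ≤ s x / (16 * R) := by
    intro x hx
    have h1 := (hκ _ (hk1 x hx).1).2.1.le.trans (min_le_right _ _)
    rwa [(hk1 x hx).2] at h1
  have hκτ : ∀ x ∈ U, κ₁ (f x) ≤ τ x / (48 * R) := by
    intro x hx
    have h1 := (hκ _ (hk1 x hx).1).2.1.le.trans (min_le_left _ _)
    rwa [(hk1 x hx).2] at h1
  have hPf : ∀ x ∈ U, ‖P x - f x‖ ≤ s x := by
    intro x hx
    have h1 : P x - f x = (g x - f x) + κ (g x) • pr I x := by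
      show g x + κ (g x) • pr I x - f x = _
      exact add_sub_right_comm _ _ _
    rw [h1]
    refine (norm_add_le _ _).trans ?_
    rw [norm_smul, Real.norm_of_nonneg (hκp x hx).le]
    have h2 := (hge x hx).trans (min_le_left _ _)
    have h3 : κ (g x) * ‖pr I x‖ ≤ (2 * (s x / (16 * R))) * R := by
      apply mul_le_mul ((hκg x hx).2.trans (by linarith [hκf x hx]))
        ((pr_norm_le I x).trans (hR x hx)) (norm_nonneg _)
      have := hs0 x hx
      positivity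
    have h4 : (2 * (s x / (16 * R))) * R = s x / 8 := by field_simp; ring
    have := hs0 x hx
    linarith
  have hgd : ∀ x ∈ U, HasFDerivAt g (fderiv ℝ g x) x := fun x hx =>
    ((hgs.contDiffAt (hU.mem_nhds hx)).differentiableAt (by simp)).hasFDerivAt
  have hPd : ∀ x ∈ U, HasFDerivAt P (fderiv ℝ g x + (κ (g x) • pr I +
      ((fderiv ℝ κ (g x)).comp (fderiv ℝ g x)).smulRight (pr I x))) x := by
    intro x hx
    have h1 : HasFDerivAt κ (fderiv ℝ κ (g x)) (g x) :=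
      (hκsm.differentiable (by simp)).differentiableAt.hasFDerivAt
    have h2 : HasFDerivAt (fun z => κ (g z)) ((fderiv ℝ κ (g x)).comp (fderiv ℝ g x)) x :=
      h1.comp x (hgd x hx)
    exact (hgd x hx).add (h2.smul (pr I).hasFDerivAt)
  have hPs : ContDiffOn ℝ ∞ P U :=
    hgs.add ((hκsm.comp_contDiffOn hgs).smul (pr I).contDiff.contDiffOn)
  have hκd : ∀ y ∈ W, ‖fderiv ℝ κ y‖ ≤ κ₁ y / 24 := by
    intro y hy
    have h1 : HasFDerivAt κ₁ (fderiv ℝ κ₁ y) y :=
      (hκs.differentiable (by simp)).differentiableAt.hasFDerivAt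
    have h2 : HasFDerivAt κ (κ₁ y • fderiv ℝ κ₁ y + κ₁ y • fderiv ℝ κ₁ y) y := h1.mul h1
    rw [h2.fderiv]
    refine (norm_add_le _ _).trans ?_
    rw [norm_smul, Real.norm_of_nonneg (hκ y hy).1.le]
    have h3 := (hκ y hy).2.2.le.trans (hδt y)
    have h4 : κ₁ y * ‖fderiv ℝ κ₁ y‖ ≤ κ₁ y * (1 / 48) :=
      mul_le_mul_of_nonneg_left h3 (hκ y hy).1.le
    linarith
  have hdκ : ∀ x ∈ U, ‖fderiv ℝ κ (g x)‖ * ‖x‖ ≤ τ x / 24 := by
    intro x hx
    have h1 := hκd _ (hgW x hx)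
    have h2 := (hκg1 x hx).2
    have h3 := hκτ x hx
    have h5 := (hτ01 x).1
    have h4 : ‖fderiv ℝ κ (g x)‖ ≤ τ x / (24 * R) := by
      have e1 : τ x / (24 * R) = 2 * (τ x / (48 * R)) := by field_simp; ring
      rw [e1]
      have h6 : 0 ≤ κ₁ (g x) := (hκ _ (hgW x hx)).1.le
      linarith
    calc ‖fderiv ℝ κ (g x)‖ * ‖x‖ ≤ τ x / (24 * R) * R :=
          mul_le_mul h4 (hR x hx) (norm_nonneg _) (by positivity)
      _ = τ x / 24 := by field_simp
  -- injectivity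
  have hPi : ∀ x ∈ U, ∀ v, fderiv ℝ P x v = 0 → v = 0 := by
    intro x hx h hh
    rw [(hPd x hx).fderiv] at hh
    set v := fderiv ℝ g x h with hvd
    have h1' : v + (κ (g x) • pr I h + (fderiv ℝ κ (g x) v) • pr I x) = 0 := hh
    obtain ⟨hD, h6⟩ := hgm x hx h fun j hj => by
      have h1 := congrFun h1' j
      simp only [Pi.add_apply, Pi.smul_apply, pr_apply, hj, if_false, smul_zero, add_zero] at h1
      exact h1
    have h1 : v + (κ (g x) • h + (fderiv ℝ κ (g x) v) • pr I x) = 0 := by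
      rw [pr_mem hD] at h1'
      exact h1'
    set r : V := (fderiv ℝ κ (g x) v) • pr I x with hr
    have h2 : v = -(κ (g x) • h) - r := by
      have : v = -(κ (g x) • h + r) := eq_neg_of_add_eq_zero_left h1
      rw [this]; abel
    have hκp := hκp x hx
    have h3 : ‖r‖ ≤ (1 / 24) * ‖v‖ := by
      rw [hr, norm_smul]
      calc ‖fderiv ℝ κ (g x) v‖ * ‖pr I x‖ ≤ (‖fderiv ℝ κ (g x)‖ * ‖v‖) * ‖x‖ := by
            gcongr
            · exact ContinuousLinearMap.le_opNorm _ _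
            · exact pr_norm_le I x
        _ = (‖fderiv ℝ κ (g x)‖ * ‖x‖) * ‖v‖ := by ring
        _ ≤ (1 / 24) * ‖v‖ := by
            gcongr
            exact (hdκ x hx).trans (by linarith [(hτ01 x).2])
    have h4 : ‖v‖ ≤ κ (g x) * ‖h‖ + ‖r‖ := by
      rw [h2]
      refine (norm_sub_le _ _).trans ?_
      rw [norm_neg, norm_smul, Real.norm_of_nonneg hκp.le]
    have h5 : ‖r‖ ≤ κ (g x) * ‖h‖ / 12 := by
      have := norm_nonneg r
      have := mul_nonneg hκp.le (norm_nonneg h)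
      linarith
    have h7 : ∑ i, h i * v i = -(κ (g x) * ∑ i, h i ^ 2) - ∑ i, h i * r i := by
      rw [h2]
      simp only [Pi.sub_apply, Pi.neg_apply, Pi.smul_apply, smul_eq_mul, Finset.mul_sum,
        ← Finset.sum_neg_distrib, ← Finset.sum_sub_distrib]
      exact Finset.sum_congr rfl fun i _ => by ring
    have h8 : ‖h‖ ^ 2 ≤ ∑ i, h i ^ 2 := by
      rcases (norm_nonneg h).eq_or_lt with h0 | h0
      · rw [← h0]
        exact (by norm_num : (0 : ℝ) ^ 2 = 0).le.trans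
          (Finset.sum_nonneg fun i _ => sq_nonneg (h i))
      · obtain ⟨i, hi⟩ : ∃ i, ‖h i‖ = ‖h‖ := by
          obtain ⟨i, -, hi⟩ := Finset.exists_max_image (Finset.univ : Finset (Fin 3))
            (fun i => ‖h i‖) ⟨0, Finset.mem_univ _⟩
          refine ⟨i, le_antisymm (norm_le_pi_norm h i) ?_⟩
          exact (pi_norm_le_iff_of_nonneg (norm_nonneg _)).2 fun j => hi j (Finset.mem_univ _)
        rw [← hi, Real.norm_eq_abs, sq_abs]
        exact Finset.single_le_sum (f := fun i => h i ^ 2) (fun i _ => sq_nonneg _)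
          (Finset.mem_univ i)
    have h9 : |∑ i, h i * r i| ≤ 3 * (‖h‖ * ‖r‖) := by
      refine (Finset.abs_sum_le_sum_abs _ _).trans ?_
      calc ∑ i, |h i * r i| ≤ ∑ _i : Fin 3, ‖h‖ * ‖r‖ := by
            refine Finset.sum_le_sum fun i _ => ?_
            rw [abs_mul]
            exact mul_le_mul (norm_le_pi_norm h i) (norm_le_pi_norm r i) (abs_nonneg _)
              (norm_nonneg _)
        _ = 3 * (‖h‖ * ‖r‖) := by simp
    rw [h7] at h6
    rw [abs_le] at h9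
    have h10 : 3 * (‖h‖ * ‖r‖) ≤ κ (g x) * ‖h‖ ^ 2 / 4 := by
      have : ‖h‖ * ‖r‖ ≤ ‖h‖ * (κ (g x) * ‖h‖ / 12) := by gcongr
      calc 3 * (‖h‖ * ‖r‖) ≤ 3 * (‖h‖ * (κ (g x) * ‖h‖ / 12)) := by linarith
        _ = κ (g x) * ‖h‖ ^ 2 / 4 := by ring
    have h11 : κ (g x) * ‖h‖ ^ 2 ≤ κ (g x) * ∑ i, h i ^ 2 := by gcongr
    have h12 : e x * ‖h‖ ^ 2 ≤ κ (g x) / 3 * ‖h‖ ^ 2 := by
      apply mul_le_mul_of_nonneg_right _ (sq_nonneg _)
      linarith [(hκg x hx).1]
    have h13 : κ (g x) * ‖h‖ ^ 2 ≤ 0 := by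
      linarith [h9.1, h9.2]
    have h14 : ‖h‖ ^ 2 ≤ 0 := by
      by_contra hc
      push Not at hc
      have := mul_pos hκp hc
      linarith
    have h15 : ‖h‖ = 0 := by
      have := sq_nonneg ‖h‖
      exact pow_eq_zero_iff (two_ne_zero) |>.1 (le_antisymm h14 this)
    exact norm_eq_zero.1 h15
  have hPD : St.IsDiffeo U W P := hN P hPs hPi fun x hx =>
    (hPf x hx).trans ((min_le_right _ _).trans (min_le_left _ _))
  -- the estimate
  have hpt : ∀ x ∈ U, ‖fderiv ℝ P x - cl (F x)‖ ≤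
      2 * ‖fderiv ℝ g x - cl (F x)‖ + τ x * ‖cl (F x)‖ + τ x := by
    intro x hx
    have hτx := (hτ01 x).1
    have hτx1 := (hτ01 x).2
    rw [(hPd x hx).fderiv]
    have e1 : fderiv ℝ g x + (κ (g x) • pr I +
        ((fderiv ℝ κ (g x)).comp (fderiv ℝ g x)).smulRight (pr I x)) - cl (F x) =
        (fderiv ℝ g x - cl (F x)) + (κ (g x) • pr I +
        ((fderiv ℝ κ (g x)).comp (fderiv ℝ g x)).smulRight (pr I x)) := by abel
    rw [e1]
    refine (norm_add_le _ _).trans ?_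
    have e2 : ‖κ (g x) • pr I‖ ≤ τ x := by
      rw [norm_smul, Real.norm_of_nonneg (hκp x hx).le]
      have h2 : ‖pr I‖ ≤ 1 := pr_op_le I
      have h3 := (hκg x hx).2
      have h4 := hκτ x hx
      have h5 : τ x / (48 * R) ≤ τ x / 48 := by
        apply div_le_div_of_nonneg_left hτx (by norm_num)
        linarith
      calc κ (g x) * ‖pr I‖ ≤ κ (g x) * 1 := by
            gcongr
            exact (hκp x hx).le
        _ ≤ τ x := by linarith
    have e3 : ‖((fderiv ℝ κ (g x)).comp (fderiv ℝ g x)).smulRight (pr I x)‖ ≤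
        τ x / 24 * (‖fderiv ℝ g x - cl (F x)‖ + ‖cl (F x)‖) := by
      rw [ContinuousLinearMap.norm_smulRight_apply]
      have h1 : ‖fderiv ℝ g x‖ ≤ ‖fderiv ℝ g x - cl (F x)‖ + ‖cl (F x)‖ := by
        have := norm_add_le (fderiv ℝ g x - cl (F x)) (cl (F x))
        rwa [sub_add_cancel] at this
      calc ‖(fderiv ℝ κ (g x)).comp (fderiv ℝ g x)‖ * ‖pr I x‖
          ≤ (‖fderiv ℝ κ (g x)‖ * ‖fderiv ℝ g x‖) * ‖x‖ := by
            gcongr
            · exact ContinuousLinearMap.opNorm_comp_le _ _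
            · exact pr_norm_le I x
        _ = (‖fderiv ℝ κ (g x)‖ * ‖x‖) * ‖fderiv ℝ g x‖ := by ring
        _ ≤ _ := mul_le_mul (hdκ x hx) h1 (norm_nonneg _) (by positivity)
    have e4 := norm_add_le (κ (g x) • pr I)
      (((fderiv ℝ κ (g x)).comp (fderiv ℝ g x)).smulRight (pr I x))
    have e5 : τ x / 24 * (‖fderiv ℝ g x - cl (F x)‖ + ‖cl (F x)‖) ≤
        1 * ‖fderiv ℝ g x - cl (F x)‖ + τ x * ‖cl (F x)‖ := by
      rw [mul_add]
      apply add_le_add
      · apply mul_le_mul_of_nonneg_right _ (norm_nonneg _)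
        linarith
      · apply mul_le_mul_of_nonneg_right _ (norm_nonneg _)
        linarith
    linarith
  refine ⟨P, hPD, fun x hx => (hPf x hx).trans ((min_le_left _ _).trans (min_le_left _ _)), ?_⟩
  have hτp : ∀ x, (τ x) ^ p ≤ τ x := fun x => by
    conv_rhs => rw [← Real.rpow_one (τ x)]
    exact Real.rpow_le_rpow_of_exponent_ge' (hτ01 x).1 (hτ01 x).2 zero_le_one hp
  calc ∫⁻ x in U, ENNReal.ofReal (w x) * ENNReal.ofReal (‖fderiv ℝ P x - cl (F x)‖ ^ p)
      ≤ ∫⁻ x in U, ENNReal.ofReal (3 ^ p) * (ENNReal.ofReal (2 ^ p) *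
          (ENNReal.ofReal (w x) * ENNReal.ofReal (‖fderiv ℝ g x - cl (F x)‖ ^ p)) +
            ENNReal.ofReal (τ x) *
              (ENNReal.ofReal (w x) * (ENNReal.ofReal (‖cl (F x)‖ ^ p) + 1))) := by
        refine setLIntegral_mono' hU.measurableSet fun x hx => ?_
        have hτx := (hτ01 x).1
        have hn0 : 0 ≤ ‖cl (F x)‖ ^ p := by positivity
        have h1 : ‖fderiv ℝ P x - cl (F x)‖ ^ p ≤ 3 ^ p * (2 ^ p *
            ‖fderiv ℝ g x - cl (F x)‖ ^ p + τ x * (‖cl (F x)‖ ^ p + 1)) := by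
          refine (Real.rpow_le_rpow (norm_nonneg _) (hpt x hx) hp0.le).trans ?_
          refine (rpow_add3_le hp (by positivity) (by positivity) hτx).trans ?_
          rw [Real.mul_rpow (by norm_num) (norm_nonneg _), Real.mul_rpow hτx (norm_nonneg _)]
          have h2 := hτp x
          have h3 : (τ x) ^ p * ‖cl (F x)‖ ^ p ≤ τ x * ‖cl (F x)‖ ^ p :=
            mul_le_mul_of_nonneg_right h2 hn0
          have h4 : (0 : ℝ) < 3 ^ p := by positivity
          apply mul_le_mul_of_nonneg_left _ h4.le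
          linarith
        refine (mul_le_mul_right (ENNReal.ofReal_le_ofReal h1) _).trans (le_of_eq ?_)
        rw [ENNReal.ofReal_mul (by positivity), ENNReal.ofReal_add (by positivity) (by positivity),
          ENNReal.ofReal_mul (by positivity), ENNReal.ofReal_mul hτx,
          ENNReal.ofReal_add hn0 zero_le_one, ENNReal.ofReal_one]
        ring
    _ = ENNReal.ofReal (3 ^ p) * (ENNReal.ofReal (2 ^ p) *
          (∫⁻ x in U, ENNReal.ofReal (w x) * ENNReal.ofReal (‖fderiv ℝ g x - cl (F x)‖ ^ p)) +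
            ∫⁻ x in U, ENNReal.ofReal (τ x) *
              (ENNReal.ofReal (w x) * (ENNReal.ofReal (‖cl (F x)‖ ^ p) + 1))) := by
        have hm1 : AEMeasurable (fun x => ENNReal.ofReal (τ x) *
            (ENNReal.ofReal (w x) * (ENNReal.ofReal (‖cl (F x)‖ ^ p) + 1)))
            (volume.restrict U) :=
          (hτc.measurable.aemeasurable).ennreal_ofReal.mul (hwm.mul (hFm'.add_const 1))
        rw [lintegral_const_mul' _ _ ENNReal.ofReal_ne_top, lintegral_add_right' _ hm1,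
          lintegral_const_mul' _ _ ENNReal.ofReal_ne_top]
    _ ≤ ENNReal.ofReal (3 ^ p) * (ENNReal.ofReal (2 ^ p) *
          ENNReal.ofReal (1 / (2 * 3 ^ p * 2 ^ p)) + ENNReal.ofReal (1 / (2 * 3 ^ p))) := by
        gcongr
    _ = 1 := by
        rw [← ENNReal.ofReal_mul (by positivity), ← ENNReal.ofReal_add (by positivity)
          (by positivity), ← ENNReal.ofReal_mul (by positivity), ← ENNReal.ofReal_one]
        congr 1
        have h3 : (3 : ℝ) ^ p ≠ 0 := by positivity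
        have h2 : (2 : ℝ) ^ p ≠ 0 := by positivity
        field_simp
        norm_num

/-- **fibrewise monotone homeomorphisms, locally in the class, have weighted fine
approximations** -/
theorem wfa_of_fib {I : Finset (Fin 3)} {p : ℝ} {Ω Λ : Set V} {f : V → V}
    {F : V → Mat} (hp : 1 ≤ p) (hΩ : St.IsBoundedDomain Ω) (hΛ : St.IsBoundedDomain Λ)
    (hf : St.IsHomeo Ω Λ f) (hF : SobLoc p Ω f F) (hmon : FibMonotone I Ω f) :
    WFA p Ω Λ f F := by
  have hΛc : Λᶜ.Nonempty := by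
    rw [nonempty_compl]
    rintro rfl
    exact NormedSpace.unbounded_univ ℝ V (PK.isBounded_of_domain hΛ)
  obtain ⟨k, ⟨hk1, hk2⟩, hfc, hkc⟩ := id hf
  have hbij : BijOn f Ω Λ :=
    ⟨fun x hx => (hk1 x hx).1, fun x hx y hy h => by
      rw [← (hk1 x hx).2, h, (hk1 y hy).2], fun y hy => ⟨k y, (hk2 y hy).1, (hk2 y hy).2⟩⟩
  obtain ⟨δ₀, h1, h2, h3⟩ := Vale.Agent.P073.exists_delta_diffeo hΩ.1 hΛ.1
    hΛ.2.1.isPreconnected hΛc hfc hkc hbij ⟨fun x hx => (hk1 x hx).2, fun y hy => (hk2 y hy).2⟩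
  refine pertW_of hp hΩ.1 (PK.isBounded_of_domain hΩ) hΛ.1 hΛc hf hF hmon h1 h2
    fun g hg hgi hgf => ?_
  obtain ⟨hb, k', hk', hinv⟩ := h3 g hg hgi hgf
  refine ⟨k', ⟨fun x hx => ⟨hb.mapsTo hx, hinv.1 hx⟩, fun y hy => ?_⟩, contDiffOn_pi.1 hg,
    contDiffOn_pi.1 hk'⟩
  obtain ⟨x, hx, rfl⟩ := hb.surjOn hy
  have h4 : k' (g x) = x := hinv.1 hx
  rw [h4]
  exact ⟨hx, rfl⟩

end Vale.Agent.P073.R2.H580
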