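import Vale.Agent.P073.R2.H580.TowDefs

/-!
# P073: diffeomorphisms are line preserving in smooth coordinates
-/

namespace Vale.Agent.P073.R2.H580

open MeasureTheory Set Filter Topology Metric Vale.Agent.P073.St
open scoped ContDiff ENNReal

variable {p : ℝ} {Ω Λ B : Set V}

/-- the identity is a diffeomorphism -/
theorem diffeo_id (U : Set V) : St.IsDiffeo U U (fun x => x) :=
  ⟨fun x => x, ⟨fun _ hx => ⟨hx, rfl⟩, fun _ hx => ⟨hx, rfl⟩⟩,
    fun i => (contDiff_pi.1 contDiff_id i).contDiffOn,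
    fun i => (contDiff_pi.1 contDiff_id i).contDiffOn⟩

/-- a diffeomorphism is line preserving in smooth coordinates -/
theorem reg_of_diffeo (hΩ : St.IsBoundedDomain Ω) {g : V → V} (hg : St.IsDiffeo Ω Λ g) :
    Reg Ω Λ g := by
  obtain ⟨k, ⟨h1, h2⟩, h3, h4⟩ := hg
  refine Or.inr (Or.inr ⟨Ω, Ω, fun x => x, k, hΩ, hΩ, diffeo_id Ω,
    ⟨g, ⟨fun y hy => h2 y hy, fun x hx => h1 x hx⟩, h4, h3⟩, fun j _ => ?_, fun x hx h hh j hj => ?_⟩)
  · exact ((contDiff_pi.1 contDiff_id j).contDiffOn).congr fun x hx =>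
      congrFun (h1 x hx).2 j
  · have h5 := hh j hj
    have h6 : (fun z => k (g z) j) =ᶠ[𝓝 x] fun z : V => z j := by
      filter_upwards [hΩ.1.mem_nhds hx] with z hz
      rw [(h1 z hz).2]
    rw [h6.fderiv_eq] at h5
    have h7 : HasFDerivAt (fun z : V => z j)
        (ContinuousLinearMap.proj (R := ℝ) (φ := fun _ : Fin 3 => ℝ) j) x :=
      (ContinuousLinearMap.proj (R := ℝ) (φ := fun _ : Fin 3 => ℝ) j).hasFDerivAt
    rw [h7.fderiv] at h5
    exact h5

end Vale.Agent.P073.R2.H580
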