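import Vale.Agent.P073.R2.H580.Pert
import Vale.Agent.P073.R2.H580.SmoothW

/-!
# P073: fibrewise monotone maps: smoothing with weights
-/

namespace Vale.Agent.P073.R2.H580

open MeasureTheory Set Filter Topology Metric Vale.Agent.P073.St Vale.Agent.P073.AB
open Vale.Agent.P073.SQ (ev)
open Vale.Agent.P073.MM
open scoped ContDiff ENNReal

/-- a compact subset lies above a level -/
theorem compact_sub_lv {U K : Set V} (hU : IsOpen U) (hne : Uᶜ.Nonempty) (hK : IsCompact K)
    (hKU : K ⊆ U) : ∃ n, K ⊆ Lv U n := by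
  rcases K.eq_empty_or_nonempty with rfl | hKn
  · exact ⟨0, empty_subset _⟩
  obtain ⟨z, hz, hmin⟩ := hK.exists_isMinOn hKn
    (f := fun x : V => infDist x Uᶜ) (continuous_infDist_pt _).continuousOn
  have hpos : 0 < infDist z Uᶜ :=
    (hU.isClosed_compl.notMem_iff_infDist_pos hne).1 (by simpa using hKU hz)
  obtain ⟨N, hN⟩ := exists_lv hpos
  exact ⟨N, fun x hx => hN.trans_le (hmin hx)⟩

theorem cover_lv {U : Set V} (hU : IsOpen U) (hne : Uᶜ.Nonempty) {x : V} (hx : x ∈ U) :
    ∃ n, x ∈ Lv U n := by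
  have hpos : 0 < infDist x Uᶜ :=
    (hU.isClosed_compl.notMem_iff_infDist_pos hne).1 (by simpa using hx)
  exact exists_lv hpos

/-- the weak derivative is measurable -/
theorem aesm_loc {p : ℝ} {U : Set V} {f : V → V} {F : V → Mat} (hU : IsOpen U)
    (hUb : Bornology.IsBounded U) (hne : Uᶜ.Nonempty) (hF : SobLoc p U f F) :
    AEStronglyMeasurable (fun x => cl (F x)) (volume.restrict U) := by
  have h1 : U = ⋃ n, Lv U n := by
    refine Subset.antisymm (fun x hx => ?_) (iUnion_subset fun n => lv_sub hU hne n)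
    obtain ⟨N, hN⟩ := cover_lv hU hne hx
    exact mem_iUnion.2 ⟨N, hN⟩
  rw [h1, aestronglyMeasurable_iUnion_iff]
  exact fun n => PK.IsSob.aesm (sobLoc_lv hU hUb hne hF n)

/-- **smoothing of a fibrewise monotone map, with a weight** -/
theorem smoothIW {I : Finset (Fin 3)} {p : ℝ} {U : Set V} {f : V → V} {F : V → Mat} (hp : 1 ≤ p)
    (hU : IsOpen U) (hUb : Bornology.IsBounded U) (hf : ContinuousOn f U)
    (hF : SobLoc p U f F) (hm : FibMonotone I U f) {e w : V → ℝ} (he : ContinuousOn e U)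
    (he0 : ∀ x ∈ U, 0 < e x) (hw : ContinuousOn w U) (hw0 : ∀ x ∈ U, 0 ≤ w x) {ε : ℝ}
    (hε : 0 < ε) :
    ∃ g : V → V, ContDiffOn ℝ ∞ g U ∧ (∀ x ∈ U, ‖g x - f x‖ ≤ e x) ∧
      ∫⁻ x in U, ENNReal.ofReal (w x) * ENNReal.ofReal (‖fderiv ℝ g x - cl (F x)‖ ^ p) ≤
        ENNReal.ofReal ε ∧
      ∀ x ∈ U, ∀ h, (∀ j ∉ I, fderiv ℝ g x h j = 0) →
        h ∈ Ds I ∧ -(e x) * ‖h‖ ^ 2 ≤ ∑ i, h i * fderiv ℝ g x h i := by
  have hp0 : 0 ≤ p := by linarith
  have hne : Uᶜ.Nonempty := by
    rw [nonempty_compl]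
    rintro rfl
    exact NormedSpace.unbounded_univ ℝ V hUb
  obtain ⟨hs, hk, hmon⟩ := hm
  have hM : MonIn (Ds I) U f := by
    intro a ha
    obtain ⟨r, hr, h1⟩ := hmon a ha
    refine ⟨r, hr, fun x y hx hy hD => h1 x y hx hy fun j hj => ?_⟩
    have := hD j hj
    rw [Pi.sub_apply] at this
    linarith
  obtain ⟨g, hgs, hge, hgE, hgm⟩ := smoothW H307.mollLp hp hU hUb hf hF
    (psd_loc hp hU hUb hne hf hF hM) he he0 hw hw0 hε
  set y : V → V := fun x i => if i ∈ I then g x i else f x i with hy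
  have hyi : ∀ i ∈ I, (fun x => y x i) = fun x => g x i := fun i hi => by
    funext x; rw [hy]; simp only [hi, if_true]
  have hyj : ∀ j ∉ I, (fun x => y x j) = fun x => f x j := fun i hi => by
    funext x; rw [hy]; simp only [hi, if_false]
  have hys : ContDiffOn ℝ ∞ y U := by
    refine contDiffOn_pi.2 fun i => ?_
    by_cases hi : i ∈ I
    · rw [hyi i hi]; exact contDiffOn_pi.1 hgs i
    · rw [hyj i hi]; exact hs i hi
  have hyd : ∀ x ∈ U, HasFDerivAt y (fderiv ℝ y x) x := fun x hx =>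
    ((hys.contDiffAt (hU.mem_nhds hx)).differentiableAt (by simp)).hasFDerivAt
  have hgd : ∀ x ∈ U, HasFDerivAt g (fderiv ℝ g x) x := fun x hx =>
    ((hgs.contDiffAt (hU.mem_nhds hx)).differentiableAt (by simp)).hasFDerivAt
  have d1 : ∀ x ∈ U, ∀ i ∈ I, ∀ h, fderiv ℝ y x h i = fderiv ℝ g x h i := by
    intro x hx i hi h
    have h1 := (hasFDerivAt_pi'.1 (hyd x hx)) i
    have h2 := (hasFDerivAt_pi'.1 (hgd x hx)) i
    rw [hyi i hi] at h1
    exact congrArg (fun L : V →L[ℝ] ℝ => L h) (h1.unique h2)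
  have d2 : ∀ x ∈ U, ∀ j ∉ I, ∀ h, fderiv ℝ y x h j = fderiv ℝ (fun z => f z j) x h := by
    intro x hx j hj h
    have h1 := (hasFDerivAt_pi'.1 (hyd x hx)) j
    rw [hyj j hj] at h1
    rw [h1.fderiv]
    rfl
  refine ⟨y, hys, fun x hx => ?_, ?_, fun x hx h hh => ?_⟩
  · refine (pi_norm_le_iff_of_nonneg (he0 x hx).le).2 fun i => ?_
    by_cases hi : i ∈ I
    · have : (y x - f x) i = (g x - f x) i := by
        rw [Pi.sub_apply, Pi.sub_apply, hy]; simp only [hi, if_true]
      rw [this]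
      exact (norm_le_pi_norm _ i).trans (hge x hx)
    · have : (y x - f x) i = 0 := by
        rw [Pi.sub_apply, hy]; simp only [hi, if_false, sub_self]
      rw [this, norm_zero]
      exact (he0 x hx).le
  · refine le_trans (lintegral_mono_ae ?_) hgE
    have hall : ∀ᵐ x ∂(volume : Measure V), ∀ i j, i ∉ I → x ∈ U →
        F x i j = fderiv ℝ (fun z => f z i) x (ev j) := by
      rw [ae_all_iff]
      intro i
      rw [ae_all_iff]
      intro j
      by_cases hi : i ∈ I
      · exact Eventually.of_forall fun x h => absurd hi h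
      · have h2 : ∀ᵐ x ∂(volume : Measure V), ∀ n, x ∈ Lv U n →
            F x i j = fderiv ℝ (fun z => f z i) x (ev j) := by
          rw [ae_all_iff]
          intro n
          have hb := hUb.subset (lv_sub hU hne n)
          exact ae_comp hp hb.measure_lt_top.ne (sobLoc_lv hU hUb hne hF n) (lv_open U n)
            Subset.rfl i ((hs i hi).mono (lv_sub hU hne n)) j
        filter_upwards [h2] with x hx _ hxU
        obtain ⟨n, hn⟩ := cover_lv hU hne hxU
        exact hx n hn
    rw [ae_restrict_iff' hU.measurableSet]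
    filter_upwards [hall] with x hx hxU
    refine mul_le_mul_right ?_ _
    apply ENNReal.ofReal_le_ofReal
    apply Real.rpow_le_rpow (norm_nonneg _) _ hp0
    refine ContinuousLinearMap.opNorm_le_bound _ (norm_nonneg _) fun h => ?_
    refine (pi_norm_le_iff_of_nonneg (by positivity)).2 fun i => ?_
    by_cases hi : i ∈ I
    · have e1 : (fderiv ℝ y x - cl (F x)) h i = (fderiv ℝ g x - cl (F x)) h i := by
        rw [ContinuousLinearMap.sub_apply, ContinuousLinearMap.sub_apply, Pi.sub_apply,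
          Pi.sub_apply, d1 x hxU i hi]
      rw [e1]
      exact (norm_le_pi_norm _ i).trans (ContinuousLinearMap.le_opNorm _ _)
    · have e1 : (fderiv ℝ y x - cl (F x)) h i = 0 := by
        rw [ContinuousLinearMap.sub_apply, Pi.sub_apply, d2 x hxU i hi, PK.cl_apply]
        have h2 : fderiv ℝ (fun z => f z i) x h =
            ∑ j, h j * fderiv ℝ (fun z => f z i) x (ev j) := by
          conv_lhs => rw [pi_eq_sum_univ' h]
          rw [map_sum]
          apply Finset.sum_congr rfl
          intro j _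
          rw [map_smul, smul_eq_mul]
          rfl
        rw [h2, ← Finset.sum_sub_distrib]
        refine Finset.sum_eq_zero fun j _ => ?_
        rw [hx i j hi hxU]
        ring
      rw [e1, norm_zero]
      positivity
  · have hD : h ∈ Ds I := by
      refine hk x hx h fun j hj => ?_
      rw [← d2 x hx j hj]
      exact hh j hj
    refine ⟨hD, (hgm x hx h hD).trans (le_of_eq ?_)⟩
    refine Finset.sum_congr rfl fun i _ => ?_
    by_cases hi : i ∈ I
    · rw [d1 x hx i hi]
    · rw [hD i hi, zero_mul, zero_mul]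

end Vale.Agent.P073.R2.H580
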