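import Vale.Agent.P073.R2.H580.Defs3

/-!
# P073: homeomorphisms with two smooth independent components: definitions and rows
-/

namespace Vale.Agent.P073.R2.H580

open MeasureTheory Set Filter Topology Vale.Agent.P073.St
open scoped ContDiff

/-- **two smooth components**: for some `C^∞` diffeomorphism `b` of `W` onto a bounded domain, two
components of `b ∘ f` are smooth on `U`, with linearly independent differentials at each point -/
def TwoSmooth (U W : Set V) (f : V → V) : Prop :=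
  ∃ (W' : Set V) (b : V → V), IsBoundedDomain W' ∧ IsDiffeo W W' b ∧
    ContDiffOn ℝ ∞ (fun x => b (f x) 0) U ∧ ContDiffOn ℝ ∞ (fun x => b (f x) 1) U ∧
    ∀ x ∈ U, ∀ s t : ℝ,
      s • fderiv ℝ (fun z => b (f z) 0) x + t • fderiv ℝ (fun z => b (f z) 1) x = 0 →
        s = 0 ∧ t = 0

/-- the standard basis -/
noncomputable def eb (j : Fin 3) : V := Pi.single j 1

/-- the direction of the fibres of `(f_0, f_1)`: the cross product of the gradients -/
noncomputable def cr (f : V → V) (x : V) : V :=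
  let A := fderiv ℝ (fun z => f z 0) x
  let B := fderiv ℝ (fun z => f z 1) x
  ![A (eb 1) * B (eb 2) - A (eb 2) * B (eb 1), A (eb 2) * B (eb 0) - A (eb 0) * B (eb 2),
    A (eb 0) * B (eb 1) - A (eb 1) * B (eb 0)]

/-- the third component with the other sign -/
def flp (f : V → V) (x : V) : V := ![f x 0, f x 1, - f x 2]

/-- on `N` the third component has smooth approximations which increase along the fibres -/
def LocUp (f : V → V) (N : Set V) : Prop :=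
  ∀ ε : ℝ, 0 < ε → ∃ w : V → ℝ, ContDiffOn ℝ ∞ w N ∧ (∀ x ∈ N, |w x - f x 2| ≤ ε) ∧
    ∀ x ∈ N, 0 < fderiv ℝ w x (cr f x)

/-- the first two components are smooth and independent -/
def Ind (Ω : Set V) (f : V → V) : Prop :=
  ContDiffOn ℝ ∞ (fun x => f x 0) Ω ∧ ContDiffOn ℝ ∞ (fun x => f x 1) Ω ∧
    ∀ x ∈ Ω, ∀ s t : ℝ,
      s • fderiv ℝ (fun z => f z 0) x + t • fderiv ℝ (fun z => f z 1) x = 0 → s = 0 ∧ t = 0

/-- Row L1: local approximation. -/
def SpecL1 : Prop := ∀ (Ω Λ : Set V) (f : V → V), IsOpen Ω → IsHomeo Ω Λ f → Ind Ω f →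
  ∀ a ∈ Ω, ∃ N : Set V, IsOpen N ∧ a ∈ N ∧ N ⊆ Ω ∧ (LocUp f N ∨ LocUp (flp f) N)

/-- Row L2: the two signs exclude each other. -/
def SpecL2 : Prop := ∀ (Ω Λ : Set V) (f : V → V), IsOpen Ω → IsHomeo Ω Λ f → Ind Ω f →
  ∀ N : Set V, IsOpen N → N.Nonempty → N ⊆ Ω → LocUp f N → LocUp (flp f) N → False

/-- Row L3: gluing. -/
def SpecL3 : Prop := ∀ (Ω Λ : Set V) (f : V → V), IsOpen Ω → IsOpen Λ → IsHomeo Ω Λ f →
  Ind Ω f → (∀ a ∈ Ω, ∃ N : Set V, IsOpen N ∧ a ∈ N ∧ N ⊆ Ω ∧ LocUp f N) →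
  ∀ δ : V → ℝ, ContinuousOn δ Ω → (∀ x ∈ Ω, 0 < δ x) →
    ∃ w : V → ℝ, ContDiffOn ℝ ∞ w Ω ∧ (∀ x ∈ Ω, |w x - f x 2| ≤ δ x) ∧
      ∀ x ∈ Ω, 0 < fderiv ℝ w x (cr f x)

end Vale.Agent.P073.R2.H580
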