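import Vale.Agent.P073.H655.Tame8Defs
import Vale.Agent.P073.R2.H580.SpecT

/-!
# P073: towers of small singular sets over the layered and triangular maps and the maps with two
smooth independent components
-/

namespace Vale.Agent.P073.R2.H580.VC

open MeasureTheory Set Filter Topology Vale.Agent.P073.St
open Vale.Agent.P073.H655.V8 (SmallLin)

/-- in smooth coordinates the homeomorphism `f` of `U` onto `W` is layered or triangular, or it has
two smooth components with linearly independent differentials -/
def Reg (U W : Set V) (f : V → V) : Prop :=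
  LayerCoord U W f ∨ TriCoord U W f ∨ TwoSmooth U W f

/-- **towers**: the homeomorphism `f` of `Ω` onto `Λ` is regular, or `Ω` contains a relatively
closed set `B`, small after linear changes of variables, such that `f` is of this class on `Ω \ B`.
So there are relatively closed subsets `∅ = K_0 ⊆ K_1 ⊆ ... ⊆ K_m` of `Ω` such that `f` is regular
off `K_m` and `K_(i+1) \ K_i` is small in `Ω \ K_i` for all `i < m`, after linear changes of
variables (which depend on `i`). -/
inductive Tower (p : ℝ) : Set V → Set V → (V → V) → Prop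
  | reg {Ω Λ : Set V} {f : V → V} (h : Reg Ω Λ f) : Tower p Ω Λ f
  | step {Ω Λ B : Set V} {f : V → V} (hB : B ⊆ Ω) (hBo : IsOpen (Ω \ B))
      (hs : SmallLin p Ω f B) (h : Tower p (Ω \ B) (Λ \ f '' B) f) : Tower p Ω Λ f

/-- `f : Ω → Λ`, with weak derivative matrix `F`, is the limit in `W^{1,p}` of `W^{1,p}`
homeomorphisms `g k` of `Ω` onto the same `Λ` which are towers. -/
def TowerApproximable (p : ℝ) (Ω Λ : Set V) (f : V → V) (F : V → Mat) : Prop :=
  ∃ (g : ℕ → V → V) (G : ℕ → V → Mat),
    (∀ k, IsHomeo Ω Λ (g k) ∧ IsSobolev p Ω (g k) (G k) ∧ Tower p Ω Λ (g k)) ∧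
    Tendsto (fun k => int Ω (fun x => euc (g k x - f x) ^ p + frob (G k x - F x) ^ p))
      atTop (𝓝 0)

end Vale.Agent.P073.R2.H580.VC
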