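import Vale.Agent.P073.R2.H580.TwoS
import Vale.Agent.P073.R2.H655.GlueW

/-!
# P073: line preserving maps have two smooth independent components
-/

namespace Vale.Agent.P073.R2.H580

open MeasureTheory Set Filter Topology Metric Vale.Agent.P073.St Vale.Agent.P073.AB
open scoped ContDiff ENNReal

theorem exists_ker (B : V →L[ℝ] ℝ) : ∃ h : V, B h = 0 ∧ (h 0 ≠ 0 ∨ h 1 ≠ 0) := by
  set b0 := B (eb 0) with hb0
  set b1 := B (eb 1) with hb1
  set b2 := B (eb 2) with hb2
  by_cases m2 : b2 = 0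
  · by_cases m1 : b1 = 0
    · by_cases m0 : b0 = 0
      · refine ⟨![1, 0, 0], ?_, Or.inl ?_⟩
        · rw [lin_eb]
          show 1 * b0 + 0 * b1 + 0 * b2 = 0
          rw [m0]
          ring
        · show (1 : ℝ) ≠ 0
          exact one_ne_zero
      · refine ⟨![b1, -b0, 0], ?_, Or.inr ?_⟩
        · rw [lin_eb]
          show b1 * b0 + -b0 * b1 + 0 * b2 = 0
          ring
        · show -b0 ≠ 0
          exact neg_ne_zero.2 m0
    · refine ⟨![b1, -b0, 0], ?_, Or.inl m1⟩
      rw [lin_eb]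
      show b1 * b0 + -b0 * b1 + 0 * b2 = 0
      ring
  · refine ⟨![b2, 0, -b0], ?_, Or.inl m2⟩
    rw [lin_eb]
    show b2 * b0 + 0 * b1 + -b0 * b2 = 0
    ring

/-- a line preserving map has two smooth independent components, in suitable coordinates of the
target -/
theorem two_of_line {U W : Set V} {f : V → V} (h : LineCoord U W f) (hU : IsOpen U) :
    TwoSmooth U W f := by
  obtain ⟨U', W', a, b, hU', hW', ha, hb, hs, hk⟩ := h
  obtain ⟨k, hinv, ha3, hk3⟩ := ha
  obtain ⟨a1, a2⟩ := id hinv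
  have has : ContDiffOn ℝ ∞ a U' := contDiffOn_pi.2 ha3
  have hks : ContDiffOn ℝ ∞ k U := contDiffOn_pi.2 hk3
  have hkm : MapsTo k U U' := fun x hx => (a2 x hx).1
  have heq : ∀ x ∈ U, ∀ j, b (f x) j = b (f (a (k x))) j := fun x hx j => by
    rw [(a2 x hx).2]
  have hsm : ∀ j ≠ (2 : Fin 3), ContDiffOn ℝ ∞ (fun x => b (f x) j) U := fun j hj =>
    ((hs j hj).comp hks hkm).congr fun x hx => heq x hx j
  have hder : ∀ j ≠ (2 : Fin 3), ∀ x ∈ U, fderiv ℝ (fun z => b (f z) j) x =
      (fderiv ℝ (fun z => b (f (a z)) j) (k x)).comp (fderiv ℝ k x) := by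
    intro j hj x hx
    have e1 : HasFDerivAt (fun z => b (f (a z)) j) (fderiv ℝ (fun z => b (f (a z)) j) (k x))
        (k x) :=
      (((hs j hj).contDiffAt (hU'.1.mem_nhds (hkm hx))).differentiableAt (by simp)).hasFDerivAt
    have e2 : HasFDerivAt k (fderiv ℝ k x) x :=
      ((hks.contDiffAt (hU.mem_nhds hx)).differentiableAt (by simp)).hasFDerivAt
    have e3 := e1.comp x e2
    have e4 : (fun z => b (f z) j) =ᶠ[𝓝 x] (fun z => b (f (a z)) j) ∘ k := by
      filter_upwards [hU.mem_nhds hx] with z hz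
      exact heq z hz j
    exact (e3.congr_of_eventuallyEq e4).fderiv
  refine ⟨W', b, hW', hb, hsm 0 (by decide), hsm 1 (by decide), fun x hx s t hst => ?_⟩
  rw [hder 0 (by decide) x hx, hder 1 (by decide) x hx] at hst
  set A := fderiv ℝ (fun z => b (f (a z)) 0) (k x) with hA
  set B := fderiv ℝ (fun z => b (f (a z)) 1) (k x) with hB
  have hax : a (k x) = x := (a2 x hx).2
  have hid := Vale.Agent.P073.R2.H655.fderiv_inv_comp hU'.1 hU hinv has hks (hkm hx)
  rw [hax] at hid
  have hlin : ∀ v : V, s * A v + t * B v = 0 := by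
    intro v
    have e1 : fderiv ℝ k x (fderiv ℝ a (k x) v) = v :=
      congrArg (fun L : V →L[ℝ] V => L v) hid
    have e2 := congrArg (fun L : V →L[ℝ] ℝ => L (fderiv ℝ a (k x) v)) hst
    have e3 : s * A (fderiv ℝ k x (fderiv ℝ a (k x) v)) +
        t * B (fderiv ℝ k x (fderiv ℝ a (k x) v)) = 0 := e2
    rwa [e1] at e3
  have hker : ∀ v : V, A v = 0 → B v = 0 → v 0 = 0 ∧ v 1 = 0 := by
    intro v hAv hBv
    have h1 := hk (k x) (hkm hx) v fun j hj => by
      fin_cases j
      · exact hAv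
      · exact hBv
      · exact absurd rfl hj
    exact ⟨h1 0 (by decide), h1 1 (by decide)⟩
  constructor
  · by_contra hs0
    obtain ⟨v, hv, hv'⟩ := exists_ker B
    have h1 := hlin v
    rw [hv, mul_zero, add_zero] at h1
    have h2 := hker v ((mul_eq_zero.1 h1).resolve_left hs0) hv
    exact hv'.elim (fun h => h h2.1) (fun h => h h2.2)
  · by_contra ht0
    obtain ⟨v, hv, hv'⟩ := exists_ker A
    have h1 := hlin v
    rw [hv, mul_zero, zero_add] at h1
    have h2 := hker v hv ((mul_eq_zero.1 h1).resolve_left ht0)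
    exact hv'.elim (fun h => h h2.1) (fun h => h h2.2)

end Vale.Agent.P073.R2.H580
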