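import Vale.Agent.P073.H655.Tame8
import Vale.Agent.P073.R2.H580.TowDefsC
import Vale.Agent.P073.R2.H580.RegD
import Vale.Agent.P073.R2.H580.TwoL
import Vale.Agent.P073.R2.H580.FinalA
import Vale.Agent.P073.R2.H268.TriLayer
import Vale.Agent.P073.R2.H488.Point

/-!
# P073: towers over the layered and triangular maps and the maps with two smooth independent
components: the theorems, from the passage to line preserving maps
-/

namespace Vale.Agent.P073.R2.H580.VC

open MeasureTheory Set Filter Topology Metric Vale.Agent.P073.St Vale.Agent.P073.AB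
open Vale.Agent.P073.H655 (homeo_restrict approximable_of_limit)
open Vale.Agent.P073.H655.V6 (FinelyApproximable finely_of_FA)
open Vale.Agent.P073.H655.V8 (SmallLin)
open scoped ContDiff ENNReal

variable {p : ℝ} {Ω Λ B : Set V}

/-- the passage to line preserving maps -/
def ToLine : Prop := ∀ {U W : Set V} {f : V → V}, St.IsBoundedDomain U → St.IsHomeo U W f →
  TwoSmooth U W f → LineCoord U W f

/-- a diffeomorphism has two smooth independent components -/
theorem two_of_diffeo (hΩ : St.IsBoundedDomain Ω) {g : V → V} (hg : St.IsDiffeo Ω Λ g) :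
    Reg Ω Λ g := by
  rcases H580.reg_of_diffeo hΩ hg with h | h | h
  · exact Or.inl h
  · exact Or.inr (Or.inl h)
  · exact Or.inr (Or.inr (two_of_line h hΩ.1))

/-- **regular homeomorphisms are finely approximable** -/
theorem fa_of_reg' (hL : ToLine) (hp : 1 ≤ p) (hΩ : St.IsBoundedDomain Ω)
    (hΛ : St.IsBoundedDomain Λ) {f : V → V} {F : V → Mat} (hf : St.IsHomeo Ω Λ f)
    (hF : St.IsSobolev p Ω f F) (h : Reg Ω Λ f) : Vale.Agent.P073.H655.FA p Ω Λ f F := by
  rcases h with h | h | h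
  · exact Vale.Agent.P073.R2.H488.fa_of_layerCoord hp hΩ hΛ hf hF h
  · exact Vale.Agent.P073.R2.H488.fa_of_layerCoord hp hΩ hΛ hf hF
      (Vale.Agent.P073.R2.H268.layer_of_tri hf h)
  · exact fa_coord hp Ω Λ f F hΩ hΛ hf hF (Or.inr (hL hΩ hf h))

/-- **towers are finely approximable** -/
theorem fa_of_tower' (hL : ToLine) (hp : 1 ≤ p) {f : V → V} (h : Tower p Ω Λ f) :
    ∀ F : V → Mat, St.IsBoundedDomain Ω → St.IsBoundedDomain Λ → St.IsHomeo Ω Λ f →
      St.IsSobolev p Ω f F → Vale.Agent.P073.H655.FA p Ω Λ f F := by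
  induction h with
  | reg h => exact fun F hΩ hΛ hf hF => fa_of_reg' hL hp hΩ hΛ hf hF h
  | step hB hBo hs _ ih =>
    intro F hΩ hΛ hf hF
    exact Vale.Agent.P073.H655.V8.step_lin hp hΩ hΛ hB hBo hf hF hs fun d1 d2 =>
      ih F d1 d2 (homeo_restrict hB hf) (RED.isSobolev_mono hBo sdiff_subset hF)

/-- **towers are finely approximable** -/
theorem tower_finely' (hL : ToLine) (hp : 1 ≤ p) (hΩ : St.IsBoundedDomain Ω)
    (hΛ : St.IsBoundedDomain Λ) {f : V → V} {F : V → Mat} (hf : St.IsHomeo Ω Λ f)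
    (hF : St.IsSobolev p Ω f F) (h : Tower p Ω Λ f) : FinelyApproximable p Ω Λ f F :=
  finely_of_FA hp hΩ hΛ hf hF (fa_of_tower' hL hp h F hΩ hΛ hf hF)

/-- **towers are approximable** -/
theorem tower_approximable' (hL : ToLine) (hp : 1 ≤ p) (hΩ : St.IsBoundedDomain Ω)
    (hΛ : St.IsBoundedDomain Λ) {f : V → V} {F : V → Mat} (hf : St.IsHomeo Ω Λ f)
    (hF : St.IsSobolev p Ω f F) (h : Tower p Ω Λ f) : St.DiffeoApproximable p Ω Λ f F :=
  _root_.Vale.Agent.P073.H694.FA.approximable hp hΩ hΛ hf hF (fa_of_tower' hL hp h F hΩ hΛ hf hF)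

/-- **the equivalence** -/
theorem tower_iff' (hL : ToLine) (hp : 1 ≤ p) (hΩ : St.IsBoundedDomain Ω)
    (hΛ : St.IsBoundedDomain Λ) {f : V → V} {F : V → Mat} (hf : St.IsHomeo Ω Λ f)
    (hF : St.IsSobolev p Ω f F) :
    TowerApproximable p Ω Λ f F ↔ St.DiffeoApproximable p Ω Λ f F := by
  constructor
  · rintro ⟨g, G, hg, hlim⟩
    exact approximable_of_limit hp hΩ hΛ hf hF (fun k => (hg k).2.1)
      (fun k => tower_approximable' hL hp hΩ hΛ (hg k).1 (hg k).2.1 (hg k).2.2) hlim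
  · rintro ⟨g, hg, hlim⟩
    exact ⟨g, fun k => jac (g k), fun k => ⟨diffeo_homeo (hg k).1, (hg k).2,
      Tower.reg (two_of_diffeo hΩ (hg k).1)⟩, hlim⟩

end Vale.Agent.P073.R2.H580.VC
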