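import Vale.Agent.P073.R2.H580.Smooth

/-!
# P073: the weak derivative of a component is the classical one where the component is smooth
-/

namespace Vale.Agent.P073.R2.H580

open MeasureTheory Set Filter Topology Metric Vale.Agent.P073.St Vale.Agent.P073.AB
open Vale.Agent.P073.SQ (ev)
open scoped ContDiff ENNReal

variable {p : ℝ} {Ω Λ : Set V}

/-- a continuous function on `U` times a function with compact support in `U` -/
theorem integrable_mul_of_support {U : Set V} {ψ w : V → ℝ} (h1 : Continuous ψ)
    (h2 : HasCompactSupport ψ) (h3 : tsupport ψ ⊆ U) (h4 : ContinuousOn w U) :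
    Integrable fun x => ψ x * w x := by
  have h5 : IntegrableOn (fun x => ψ x * w x) (tsupport ψ) volume :=
    ContinuousOn.integrableOn_compact h2 (h1.continuousOn.mul (h4.mono h3))
  refine (integrableOn_iff_integrable_of_support_subset ?_).1 h5
  intro y hy
  by_contra h
  apply hy
  show ψ y * w y = 0
  rw [image_eq_zero_of_notMem_tsupport h, zero_mul]

/-- uniqueness of the weak derivative on an open set where the map is `C¹` -/
theorem ae_comp (hp : 1 ≤ p) (hv : volume Ω ≠ ⊤) {f : V → V} {F : V → Mat}
    (hF : St.IsSobolev p Ω f F) {U : Set V} (hU : IsOpen U) (hUΩ : U ⊆ Ω) (i : Fin 3)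
    (hf : ContDiffOn ℝ ∞ (fun x => f x i) U) (j : Fin 3) :
    ∀ᵐ x ∂(volume : Measure V), x ∈ U → F x i j = fderiv ℝ (fun z => f z i) x (ev j) := by
  set u : V → ℝ := fun x => f x i with hu
  set w : V → ℝ := fun x => fderiv ℝ u x (ev j) with hw
  have hus : ContDiffOn ℝ ∞ u U := hf
  have hud : ∀ x ∈ U, DifferentiableAt ℝ u x := fun x hx =>
    (hus.contDiffAt (hU.mem_nhds hx)).differentiableAt (by simp)
  have hwc : ContinuousOn w U :=
    (hus.continuousOn_fderiv_of_isOpen hU (by simp)).clm_apply continuousOn_const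
  have hFi : IntegrableOn (fun x => F x i j) Ω := PK.InLp.integrableOn hp hv (hF.2.1 i j)
  have hloc : LocallyIntegrableOn (fun x => F x i j - w x) U :=
    ((hFi.mono_set hUΩ).locallyIntegrableOn).sub (hwc.locallyIntegrableOn hU.measurableSet)
  have hmain := hU.ae_eq_zero_of_integral_contDiff_smul_eq_zero hloc ?_
  · filter_upwards [hmain] with x hx hxU
    have := hx hxU
    linarith
  intro φ hφs hφ2 hφ3
  have hφΩ : tsupport φ ⊆ Ω := hφ3.trans hUΩ
  have hφd : Differentiable ℝ φ := hφs.differentiable (by simp)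
  have hdφ : Continuous fun x => fderiv ℝ φ x (ev j) :=
    (hφs.continuous_fderiv (by simp)).clm_apply continuous_const
  have hdφc : HasCompactSupport fun x => fderiv ℝ φ x (ev j) := hφ2.fderiv_apply ℝ _
  have hdφs : tsupport (fun x => fderiv ℝ φ x (ev j)) ⊆ U := by
    refine (closure_mono ?_).trans ((tsupport_fderiv_subset ℝ).trans hφ3)
    intro y hy h0
    apply hy
    show fderiv ℝ φ y (ev j) = 0
    rw [h0]; rfl
  have hi1 := integrable_mul_of_support hdφ hdφc hdφs hus.continuousOn
  have hi2 := integrable_mul_of_support hφs.continuous hφ2 hφ3 hwc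
  have hi3 := integrable_mul_of_support hφs.continuous hφ2 hφ3 hus.continuousOn
  have hibp := integral_mul_fderiv_eq_neg_fderiv_mul_of_integrable hi1 hi2 hi3
    (fun x _ => hφd x) (fun x hx => hud x (hφ3 hx))
  have hpd : ∀ x, pd φ x j = fderiv ℝ φ x (ev j) := fun x => PK.pd_eq_fderiv hφs x j
  have htest : St.IsTest Ω φ := ⟨hφs.contDiffOn, hφ2, hφΩ⟩
  have hweak := hF.2.2 φ htest i j
  have e1 : St.int Ω (fun x => φ x * F x i j) = ∫ x, φ x * F x i j := by
    unfold St.int
    rw [setIntegral_eq_integral_of_forall_compl_eq_zero]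
    intro x hx
    rw [image_eq_zero_of_notMem_tsupport (fun h => hx (hφΩ h)), zero_mul]
  have e2 : St.int Ω (fun x => St.pd φ x j * f x i) = ∫ x, fderiv ℝ φ x (ev j) * u x := by
    unfold St.int
    rw [setIntegral_eq_integral_of_forall_compl_eq_zero]
    · refine integral_congr_ae (Eventually.of_forall fun x => ?_)
      show St.pd φ x j * f x i = fderiv ℝ φ x (ev j) * u x
      rw [hpd]
    · intro x hx
      rw [hpd, image_eq_zero_of_notMem_tsupport (f := fun x => fderiv ℝ φ x (ev j))
        (fun h => hx (hUΩ (hdφs h))), zero_mul]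
  rw [e1, e2] at hweak
  have hi4 : Integrable fun x => φ x * F x i j := by
    obtain ⟨C, hC⟩ := hφ2.exists_bound_of_continuous hφs.continuous
    have h5 : IntegrableOn (fun x => φ x * F x i j) Ω :=
      hFi.bdd_mul hφs.continuous.aestronglyMeasurable (ae_of_all _ hC)
    refine (integrableOn_iff_integrable_of_support_subset ?_).1 h5
    intro y hy
    by_contra h
    apply hy
    show φ y * F y i j = 0
    rw [image_eq_zero_of_notMem_tsupport (fun h' => h (hφΩ h')), zero_mul]
  have e3 : ∫ x, φ x • (F x i j - w x) = (∫ x, φ x * F x i j) - ∫ x, φ x * w x := by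
    rw [← integral_sub hi4 hi2]
    refine integral_congr_ae (Eventually.of_forall fun x => ?_)
    show φ x • (F x i j - w x) = φ x * F x i j - φ x * w x
    rw [smul_eq_mul, mul_sub]
  rw [e3, hweak]
  have e4 : ∫ x, φ x * w x = -∫ x, fderiv ℝ φ x (ev j) * u x := hibp
  rw [e4]
  ring

end Vale.Agent.P073.R2.H580
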